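import Vale.Agent.P207.N3.Spec

/-!
# P207, line N3 (P4): the axis of `β`, North-South dynamics, comparison of leaves

`IsAxis β x l a`: `β • x = φ l (rot a x)`. Main results:

* `hol_asym_axis` / `key`: for `K ⊆ B ∖ {β⁺}` compact and `Q` a compact set of frames of the leaf
  of `β⁻`: `dist (φ t y) (φ t (hol (β^{-m} ζ) y)) ≤ C exp (-χ (m l + t))`, `t ≥ - m l`,
  uniformly for `ζ ∈ K`, `y ∈ Q`, `m ≥ m₀`;
* `north`, `south`: North-South dynamics of `β` on `B`, uniformly on compact sets.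
-/

open Set Filter Topology Metric MeasureTheory
open scoped ContDiff

noncomputable section

namespace Vale.Agent.P207.N3.H147

variable {Γ X B : Type} [Group Γ] [MetricSpace X] [ProperSpace X] [MulAction Γ X]
  [IsIsometricSMul Γ X] [TopologicalSpace B] [CompactSpace B] [T2Space B] [MulAction Γ B]
  [ContinuousConstSMul Γ B] (L : Leaf Γ X B)

/-! ### End points -/

theorem ep_cont : Continuous L.ep := by
  have h : L.ep = fun x => L.em (L.flip x) := funext fun x => L.ep_flip x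
  rw [h]
  exact L.em_cont.comp L.flip_cont

theorem ep_smul (g : Γ) (x : X) : L.ep (g • x) = g • L.ep x := by
  rw [L.ep_flip, L.flip_smul, L.em_smul, L.ep_flip]

theorem ep_φ (t : ℝ) (x : X) : L.ep (L.φ t x) = L.ep x := by
  rw [L.ep_flip, L.flip_φ, L.em_φ, L.ep_flip]

theorem ep_rot (a : O2) (x : X) : L.ep (L.rot a x) = L.ep x := by
  rw [L.ep_flip, L.flip_rot, L.em_rot, L.ep_flip]

theorem φ_sub_cancel (s : ℝ) (x : X) : L.φ s (L.φ (-s) x) = x := by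
  rw [← L.φ_add, add_neg_cancel, L.φ_zero]

theorem φ_sub_cancel' (s : ℝ) (x : X) : L.φ (-s) (L.φ s x) = x := by
  rw [← L.φ_add, neg_add_cancel, L.φ_zero]

theorem φ_comm (s t : ℝ) (x : X) : L.φ s (L.φ t x) = L.φ t (L.φ s x) := by
  rw [← L.φ_add, ← L.φ_add, add_comm]

variable {L} {β : Γ} {x : X} {l : ℝ} {a : O2}

namespace Ax

theorem smul_em (h : L.IsAxis β x l a) : β • L.em x = L.em x := by
  rw [← L.em_smul, h.eq, L.em_φ, L.em_rot]

theorem smul_ep (h : L.IsAxis β x l a) : β • L.ep x = L.ep x := by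
  rw [← ep_smul, h.eq, ep_φ, ep_rot]

theorem pow_smul_em (h : L.IsAxis β x l a) (m : ℕ) : β ^ m • L.em x = L.em x := by
  induction m with
  | zero => simp
  | succ m ih => rw [pow_succ, mul_smul, smul_em h, ih]

theorem pow_smul_ep (h : L.IsAxis β x l a) (m : ℕ) : β ^ m • L.ep x = L.ep x := by
  induction m with
  | zero => simp
  | succ m ih => rw [pow_succ, mul_smul, smul_ep h, ih]

theorem inv_pow_smul_em (h : L.IsAxis β x l a) (m : ℕ) : (β ^ m)⁻¹ • L.em x = L.em x := by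
  rw [inv_smul_eq_iff, pow_smul_em h]

theorem inv_pow_smul_ep (h : L.IsAxis β x l a) (m : ℕ) : (β ^ m)⁻¹ • L.ep x = L.ep x := by
  rw [inv_smul_eq_iff, pow_smul_ep h]

theorem pow_smul (h : L.IsAxis β x l a) (m : ℕ) :
    β ^ m • x = L.φ (m * l) (L.rot (a ^ m) x) := by
  induction m with
  | zero => simp [L.φ_zero, L.rot_one]
  | succ m ih =>
    have e1 : a ^ (m + 1) = a ^ m * a := pow_succ a m
    rw [pow_succ', mul_smul, ih, ← L.φ_smul, ← L.rot_smul, h.eq, L.rot_φ, ← L.φ_add, e1,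
      ← L.rot_mul]
    have e2 : (a ^ m * a) = a * a ^ m := by rw [← pow_succ, ← pow_succ']
    rw [e2]
    congr 1
    push_cast
    ring

theorem pow (h : L.IsAxis β x l a) {m : ℕ} (hm : 0 < m) : L.IsAxis (β ^ m) x (m * l) (a ^ m) :=
  ⟨mul_pos (by exact_mod_cast hm) h.pos, pow_smul h m⟩

theorem flip (h : L.IsAxis β x l a) : L.IsAxis β⁻¹ (L.flip x) l a⁻¹ := by
  refine ⟨h.pos, ?_⟩
  rw [inv_smul_eq_iff, ← L.φ_smul, ← L.rot_smul, ← L.flip_smul, h.eq, L.flip_φ, L.flip_rot,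
    L.rot_φ, ← L.rot_mul, mul_inv_cancel, L.rot_one, φ_sub_cancel]

/-- the level on the leaf of `β⁻` -/
theorem lv_smul (h : L.IsAxis β x l a) {y : X} (hy : L.em y = L.em x) :
    L.lv (β • y) = L.lv y + l := by
  have h1 := L.lv_smul β y x hy
  rw [h.eq, L.lv_φ, L.lv_rot] at h1
  linarith

theorem lv_pow_smul (h : L.IsAxis β x l a) {y : X} (hy : L.em y = L.em x) (m : ℕ) :
    L.lv (β ^ m • y) = L.lv y + m * l := by
  have h1 := L.lv_smul (β ^ m) y x hy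
  rw [pow_smul h, L.lv_φ, L.lv_rot] at h1
  linarith

/-- the basic comparison, in a form from which both the axis and the general case follow -/
theorem hol_asym_aux (β : Γ) (l : ℝ) {K : Set B} (hK : IsCompact K)
    {K1 : Set X} (hK1 : IsCompact K1) (hd : ∀ ζ ∈ K, ∀ y ∈ K1, ζ ≠ L.ep y) :
    ∃ C, ∀ m : ℕ, ∀ ζ ∈ K, ∀ y : X, L.φ (-(m * l)) (β ^ m • y) ∈ K1 → ∀ t ≥ -(m * l),
      (β ^ m)⁻¹ • ζ ≠ L.ep y ∧
      dist (L.φ t y) (L.φ t (L.hol ((β ^ m)⁻¹ • ζ) y)) ≤ C * Real.exp (-L.χ * (m * l + t)) := by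
  obtain ⟨C, hC⟩ := L.hol_asym (K ×ˢ K1) (hK.prod hK1) (fun p hp => hd _ hp.1 _ hp.2)
  refine ⟨C, fun m ζ hζ y hy t ht => ?_⟩
  have hne : ζ ≠ L.ep (β ^ m • y) := by
    have := hd ζ hζ _ hy
    rwa [ep_φ] at this
  have hne' : (β ^ m)⁻¹ • ζ ≠ L.ep y := by
    rw [ep_smul] at hne
    intro hc
    exact hne (by rw [← hc, smul_inv_smul])
  refine ⟨hne', ?_⟩
  have h1 := hC (ζ, L.φ (-(m * l)) (β ^ m • y)) ⟨hζ, hy⟩ (m * l + t) (by linarith)
  simp only at h1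
  have e1 : L.φ (m * l + t) (L.φ (-(m * l)) (β ^ m • y)) = β ^ m • L.φ t y := by
    rw [← L.φ_add, ← L.φ_smul]
    congr 1
    ring
  have e2 : L.φ (m * l + t) (L.hol ζ (L.φ (-(m * l)) (β ^ m • y)))
      = β ^ m • L.φ t (L.hol ((β ^ m)⁻¹ • ζ) y) := by
    rw [L.hol_φ _ _ _ hne, ← L.φ_add, ← L.φ_smul]
    have e3 : m * l + t + -(m * l) = t := by ring
    rw [e3]
    congr 1
    have := L.hol_smul (β ^ m) ((β ^ m)⁻¹ • ζ) y hne'
    rw [smul_inv_smul] at this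
    exact this
  rw [e1, e2, dist_smul] at h1
  exact h1

/-- comparison along the axis -/
theorem hol_asym_axis (h : L.IsAxis β x l a) {K : Set B} (hK : IsCompact K)
    (hKx : L.ep x ∉ K) :
    ∃ C, ∀ m : ℕ, ∀ ζ ∈ K, ∀ b : O2, ∀ t ≥ -(m * l), (β ^ m)⁻¹ • ζ ≠ L.ep x ∧
      dist (L.φ t (L.rot b x)) (L.φ t (L.hol ((β ^ m)⁻¹ • ζ) (L.rot b x)))
        ≤ C * Real.exp (-L.χ * (m * l + t)) := by
  have hK1 := L.hopf_proper {(L.em x, L.ep x)} isCompact_singleton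
    (by rintro p rfl; exact L.em_ne_ep x) (|L.lv x|)
  obtain ⟨C, hC⟩ := hol_asym_aux β l hK hK1 (by
    rintro ζ hζ y ⟨hy, _⟩ rfl
    simp only [mem_singleton_iff, Prod.mk.injEq] at hy
    rw [hy.2] at hζ
    exact hKx hζ)
  refine ⟨C, fun m ζ hζ b t ht => ?_⟩
  have h1 := hC m ζ hζ (L.rot b x) ?_ t ht
  · rw [ep_rot] at h1
    exact h1
  · have e1 : L.φ (-(m * l)) (β ^ m • L.rot b x) = L.rot b (L.rot (a ^ m) x) := by
      rw [← L.rot_smul, pow_smul h, L.rot_φ, φ_sub_cancel']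
    rw [e1]
    refine ⟨?_, ?_⟩
    · simp [L.em_rot, ep_rot]
    · rw [L.lv_rot, L.lv_rot]

theorem tendsto_exp_aux (h : L.IsAxis β x l a) (C : ℝ) :
    Tendsto (fun m : ℕ => C * Real.exp (-L.χ * (m * l + 0))) atTop (𝓝 0) := by
  have h1 : Tendsto (fun m : ℕ => L.χ * l * (m : ℝ)) atTop atTop :=
    tendsto_natCast_atTop_atTop.const_mul_atTop (mul_pos L.χ_pos h.pos)
  have h2 := (Real.tendsto_exp_neg_atTop_nhds_zero.comp h1).const_mul C
  rw [mul_zero] at h2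
  refine h2.congr fun m => ?_
  simp only [Function.comp_apply]
  congr 2
  ring

/-- `β^{-m} ζ → β⁻`, uniformly on compact subsets of `B ∖ {β⁺}` -/
theorem south (h : L.IsAxis β x l a) {K : Set B} (hK : IsCompact K) (hKx : L.ep x ∉ K)
    {V : Set B} (hV : V ∈ 𝓝 (L.em x)) : ∀ᶠ m : ℕ in atTop, ∀ ζ ∈ K, (β ^ m)⁻¹ • ζ ∈ V := by
  obtain ⟨C, hC⟩ := hol_asym_axis h hK hKx
  have h1 : L.em ⁻¹' V ∈ 𝓝 x := L.em_cont.continuousAt hV
  obtain ⟨ε, hε, hb⟩ := Metric.mem_nhds_iff.1 h1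
  filter_upwards [(tendsto_exp_aux h C).eventually (gt_mem_nhds hε)] with m hm ζ hζ
  obtain ⟨h2, h3⟩ := hC m ζ hζ 1 0 (by
    have := h.pos
    have : 0 ≤ (m : ℝ) * l := by positivity
    linarith)
  rw [L.rot_one, L.φ_zero, L.φ_zero] at h3
  have h4 : L.hol ((β ^ m)⁻¹ • ζ) x ∈ L.em ⁻¹' V := by
    apply hb
    rw [mem_ball, dist_comm]
    exact lt_of_le_of_lt h3 hm
  rw [mem_preimage, L.hol_em _ _ h2] at h4
  exact h4

/-- `β^m ζ → β⁺`, uniformly on compact subsets of `B ∖ {β⁻}` -/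
theorem north (h : L.IsAxis β x l a) {K : Set B} (hK : IsCompact K) (hKx : L.em x ∉ K)
    {V : Set B} (hV : V ∈ 𝓝 (L.ep x)) : ∀ᶠ m : ℕ in atTop, ∀ ζ ∈ K, β ^ m • ζ ∈ V := by
  have e1 : L.ep (L.flip x) = L.em x := by rw [L.ep_flip, L.flip_flip]
  have e2 : L.em (L.flip x) = L.ep x := by rw [L.ep_flip]
  filter_upwards [south (flip h) hK (by rwa [e1]) (V := V) (by rwa [e2])] with m hm ζ hζ
  have := hm ζ hζ
  simpa using this

/-- **comparison of the leaf of `β^{-m} ζ` with the leaf of `β⁻`** -/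
theorem key (h : L.IsAxis β x l a) {K : Set B} (hK : IsCompact K) (hKx : L.ep x ∉ K)
    {Q : Set X} (hQ : IsCompact Q) (hQx : ∀ y ∈ Q, L.em y = L.em x) :
    ∃ C, ∀ᶠ m : ℕ in atTop, ∀ ζ ∈ K, ∀ y ∈ Q, ∀ t ≥ -(m * l),
      (β ^ m)⁻¹ • ζ ≠ L.ep y ∧
      dist (L.φ t y) (L.φ t (L.hol ((β ^ m)⁻¹ • ζ) y)) ≤ C * Real.exp (-L.χ * (m * l + t)) := by
  have hcl : IsClosed (K ∪ {L.em x}) := hK.isClosed.union isClosed_singleton
  have hn : (K ∪ {L.em x})ᶜ ∈ 𝓝 (L.ep x) := by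
    refine hcl.isOpen_compl.mem_nhds ?_
    rintro (h1 | h1)
    · exact hKx h1
    · exact L.em_ne_ep x h1.symm
  obtain ⟨V, hV, hVc, hVs⟩ := exists_mem_nhds_isClosed_subset hn
  obtain ⟨c, hc⟩ : ∃ c, ∀ y ∈ Q, |L.lv y| ≤ c := by
    obtain ⟨c, hc⟩ := hQ.exists_bound_of_continuousOn L.lv_cont.continuousOn
    exact ⟨c, fun y hy => by simpa using hc y hy⟩
  have hK1 := L.hopf_proper ({L.em x} ×ˢ V) (isCompact_singleton.prod hVc.isCompact)
    (by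
      rintro ⟨p, q⟩ ⟨hp, hq⟩ hpq
      simp only [mem_singleton_iff] at hp hpq
      subst hpq
      exact hVs hq (Or.inr hp)) c
  obtain ⟨C, hC⟩ := hol_asym_aux β l hK hK1 (by
    rintro ζ hζ y ⟨hy, _⟩ rfl
    exact hVs hy.2 (Or.inl hζ))
  refine ⟨C, ?_⟩
  have hN := north h (K := L.ep '' Q) (hQ.image (ep_cont L)) (by
    rintro ⟨y, hy, he⟩
    exact L.em_ne_ep y (by rw [he, hQx y hy])) hV
  filter_upwards [hN] with m hm ζ hζ y hy t ht
  refine hC m ζ hζ y ⟨?_, ?_⟩ t ht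
  · refine ⟨?_, ?_⟩
    · rw [mem_singleton_iff, L.em_φ, L.em_smul, hQx y hy, pow_smul_em h]
    · rw [ep_φ, ep_smul]
      exact hm _ (mem_image_of_mem _ hy)
  · rw [L.lv_φ, lv_pow_smul h (hQx y hy)]
    have := hc y hy
    rwa [show L.lv y + m * l + -(m * l) = L.lv y by ring]

end Ax

end Vale.Agent.P207.N3.H147
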