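import Vale.Agent.P207.N3.Top.Defs
import Vale.Agent.P207.N3.H147.Axis

/-!
# P207, line N3 (P4, E2 and E3): forward coordinates, the matrices `B_κ`, statements

`o : Orb L` is a closed orbit, `x : B → E2` its normal coordinate (`Nor.x`) and `N` its normal form
(`Nor.N.fn`).
-/

open Set Filter Topology Metric MeasureTheory
open scoped ContDiff

noncomputable section

namespace Vale.Agent.P207.N3.H147

variable {Γ X B : Type} [Group Γ] [MetricSpace X] [ProperSpace X] [MulAction Γ X]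
  [IsIsometricSMul Γ X] [TopologicalSpace B] [CompactSpace B] [T2Space B] [MulAction Γ B]
  [ContinuousConstSMul Γ B] {L : Leaf Γ X B}

/-- **Forward coordinates** (1.4): `F ζ` is a chart of `U_ζ` near `β⁺` for every `ζ ≠ β⁺`, and
`N^m ∘ F ζ ∘ β^m`, a function on `U_{β^{-m} ζ}`, converges to `x` with error `O(e^{-c m l})`. -/
structure Fwd (o : Orb L) (x : B → E2) (N : E2 → E2) (c : ℝ) where
  F : B → B → E2
  base : ∀ ζ, ζ ≠ o.pos → F ζ o.pos = 0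
  smooth : ∀ ζ, ζ ≠ o.pos → ContDiffOn ℝ ∞ (fun u => F ζ (L.e (L.hol ζ o.x) u)) (ball 0 1)
  cont : ∀ k : ℕ, ContinuousOn (fun p : B × E2 =>
    iteratedFDeriv ℝ k (fun u => F p.1 (L.e (L.hol p.1 o.x) u)) p.2) ({o.pos}ᶜ ×ˢ ball 0 1)
  deriv : ∀ ζ, ζ ≠ o.pos → (fderiv ℝ (fun u => F ζ (L.e (L.hol ζ o.x) u)) 0).det ≠ 0
  conv : ∀ K : Set B, IsCompact K → o.pos ∉ K → ∀ Q : Set X, IsCompact Q →
    (∀ y ∈ Q, L.em y = o.neg) → ∀ k : ℕ, ∃ C, ∀ᶠ m : ℕ in atTop, ∀ ζ ∈ K, ∀ y ∈ Q,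
    (o.β ^ m)⁻¹ • ζ ≠ L.ep y ∧
    (∀ u ∈ closedBall (0 : E2) 3, o.β ^ m • L.e (L.hol ((o.β ^ m)⁻¹ • ζ) y) u
      ∈ L.e (L.hol ζ o.x) '' ball 0 1) ∧
    ContDiffOn ℝ ∞ (fun u => N^[m] (F ζ (o.β ^ m • L.e (L.hol ((o.β ^ m)⁻¹ • ζ) y) u)))
      (ball 0 3) ∧
    ∀ u ∈ closedBall (0 : E2) 1,
      ‖iteratedFDeriv ℝ k
          (fun u => N^[m] (F ζ (o.β ^ m • L.e (L.hol ((o.β ^ m)⁻¹ • ζ) y) u))) u
        - iteratedFDeriv ℝ k (fun u => x (L.e y u)) u‖ ≤ C * Real.exp (-c * o.l * m)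
  conv3 : ∀ K : Set B, IsCompact K → o.pos ∉ K → ∀ Q : Set X, IsCompact Q →
    (∀ y ∈ Q, L.em y = o.neg) → ∀ k : ℕ, ∀ ε > 0, ∀ᶠ m : ℕ in atTop, ∀ ζ ∈ K, ∀ y ∈ Q,
    ∀ u ∈ ball (0 : E2) 3,
      ‖iteratedFDeriv ℝ k
          (fun u => N^[m] (F ζ (o.β ^ m • L.e (L.hol ((o.β ^ m)⁻¹ • ζ) y) u))) u
        - iteratedFDeriv ℝ k (fun u => x (L.e y u)) u‖ ≤ ε

namespace Fwd

variable {o : Orb L} {x : B → E2} {N : E2 → E2} {c : ℝ}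

/-- the derivative of the forward coordinate at `β⁺`, in the chart of a frame `y` with `ep y = β⁺` -/
def G (W : Fwd o x N c) (y : X) : E2 →L[ℝ] E2 := fderiv ℝ (fun u => W.F (L.em y) (L.e y u)) 0

/-- the frame at the homoclinic point `k β⁺` of `U_{β⁻}` -/
def hom (_ : Fwd o x N c) (k : Γ) : X := L.hol o.neg (k • o.x)

/-- the matrix `B_κ`, `κ = k β⁺`: `D(x^κ ∘ x⁻¹)` at `x κ`, `x^κ = F (k⁻¹ β⁻) ∘ k⁻¹` -/
def Bm (W : Fwd o x N c) (k : Γ) : E2 →L[ℝ] E2 :=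
  W.G (L.hol (k⁻¹ • o.neg) o.x) ∘L (fderiv ℝ (fun u => x (L.e (W.hom k) u)) 0).inverse

end Fwd

/-- the return map of the closed orbit with axis frame `z`, at `0`: `M_θ = D((e z)⁻¹ ∘ θ ∘ e z)(0)` -/
def ret0 (L : Leaf Γ X B) (θ : Γ) (z : X) : E2 →L[ℝ] E2 := fderiv ℝ (L.τ (θ • z) z) 0

/-- **The closing formula** (1.5) for `θ_m = k β^m`:
`M_θ⁻¹` is conjugate to `D(N^m)(w_m) ∘ (B_κ + O(e^{-c m l}))`, `w_m = N^{-m} v_m`,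
`v_m → x κ`. -/
structure Closing (o : Orb L) (x : B → E2) (N : E2 → E2) (c : ℝ) (k : Γ) (Bk : E2 →L[ℝ] E2) where
  z : ℕ → X
  lz : ℕ → ℝ
  az : ℕ → O2
  w : ℕ → E2
  E : ℕ → E2 →L[ℝ] E2
  P : ℕ → E2 ≃L[ℝ] E2
  axis : ∀ᶠ m in atTop, L.IsAxis (k * o.β ^ m) (z m) (lz m) (az m)
  em_lim : Tendsto (fun m => L.em (z m)) atTop (𝓝 o.neg)
  ep_lim : Tendsto (fun m => L.ep (z m)) atTop (𝓝 (k • o.pos))
  per : Tendsto (fun m => lz m - m * o.l) atTop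
    (𝓝 (L.lv (L.hol o.neg (k • o.x)) - L.lv o.x))
  w_lim : Tendsto (fun m => N^[m] (w m)) atTop (𝓝 (x (k • o.pos)))
  err : ∃ C, ∀ᶠ m : ℕ in atTop, ‖E m‖ ≤ C * Real.exp (-c * o.l * m)
  form : ∀ᶠ m in atTop,
    (fderiv ℝ (N^[m]) (w m) ∘L (Bk + E m)) ∘L ((P m : E2 →L[ℝ] E2) ∘L ret0 L (k * o.β ^ m) (z m))
      = (P m : E2 →L[ℝ] E2)

end Vale.Agent.P207.N3.H147
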