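import Vale.Agent.P207.N3.H992.Conv
import Vale.Agent.P207.N3.H545.Interp
import Vale.Agent.P207.N3.Spec

/-!
# P207, line N3 (P4, E2): families with bounded derivatives, interpolation with rates

Mathlib-only (plus 992's `BF` and 545's interpolation).
-/

open Set Filter Topology Metric
open scoped ContDiff
open Vale.Agent.P207.N3.H992 (BF BF_iff IB)

noncomputable section

namespace Vale.Agent.P207.N3.H147

variable {ι : Type}

/-- all derivatives are bounded on the ball, uniformly in the family -/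
def FB (R : ℝ) (z : ι → E2 → E2) : Prop :=
  (∀ i, ContDiffOn ℝ ∞ (z i) (ball 0 R)) ∧
    ∀ k : ℕ, ∃ C : ℝ, ∀ i, ∀ u ∈ ball (0 : E2) R, ‖iteratedFDeriv ℝ k (z i) u‖ ≤ C

theorem cont_iter {f : E2 → E2} {R : ℝ} (hf : ContDiffOn ℝ ∞ f (ball 0 R)) (j : ℕ) :
    ContinuousOn (iteratedFDeriv ℝ j f) (ball 0 R) := by
  have h5 := (hf.of_le (m := j) (by exact_mod_cast le_top)).continuousOn_iteratedFDerivWithin
    (m := j) le_rfl isOpen_ball.uniqueDiffOn
  exact h5.congr fun x hx => (iteratedFDerivWithin_of_isOpen j isOpen_ball hx).symm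

theorem FB_iff [TopologicalSpace ι] [DiscreteTopology ι] {R : ℝ} {z : ι → E2 → E2} :
    FB R z ↔ ∀ k, BF R k z := by
  constructor
  · rintro ⟨h1, h2⟩ k
    rw [BF_iff]
    refine ⟨fun p => (h1 p).of_le (by exact_mod_cast le_top), fun j _ => ⟨?_, h2 j⟩⟩
    rintro ⟨i, u⟩ ⟨_, hu⟩
    have h3 := ((cont_iter (h1 i) j) u hu).continuousAt (isOpen_ball.mem_nhds hu)
    have h4 : (fun q : ι × E2 => iteratedFDeriv ℝ j (z q.1) q.2) =ᶠ[𝓝 (i, u)]
        fun q => iteratedFDeriv ℝ j (z i) q.2 := by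
      have h5 : {q : ι × E2 | q.1 = i} ∈ 𝓝 (i, u) :=
        (isOpen_discrete ({i} : Set ι)).preimage continuous_fst |>.mem_nhds rfl
      filter_upwards [h5] with q hq
      have hq' : q.1 = i := hq
      rw [hq']
    refine ContinuousAt.continuousWithinAt ?_
    refine ContinuousAt.congr ?_ h4.symm
    exact ContinuousAt.comp (f := fun q : ι × E2 => q.2) (g := iteratedFDeriv ℝ j (z i)) h3
      continuousAt_snd
  · intro h
    refine ⟨fun i => contDiffOn_infty.2 fun k => (BF_iff.1 (h k)).1 i, fun k => ?_⟩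
    exact ((BF_iff.1 (h k)).2 k le_rfl).2

theorem FB.comp {R : ℝ} {z G : ι → E2 → E2} (hz : FB R z) (hG : FB R G)
    (hm : ∀ i, ∀ u ∈ ball (0 : E2) R, G i u ∈ ball (0 : E2) R) : FB R (fun i u => z i (G i u)) := by
  let _ : TopologicalSpace ι := ⊥
  have _ : DiscreteTopology ι := ⟨rfl⟩
  rw [FB_iff] at *
  exact fun k => BF.comp hG hm (hz k)

/-- one smooth function -/
theorem FB.of_contDiff {f : E2 → E2} (hf : ContDiff ℝ ∞ f) (R : ℝ) : FB R (fun _ : ι => f) := by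
  refine ⟨fun _ => hf.contDiffOn, fun k => ?_⟩
  obtain ⟨C, hC⟩ := (isCompact_closedBall (0 : E2) R).exists_bound_of_continuousOn
    (hf.continuous_iteratedFDeriv (m := k) (by exact_mod_cast le_top)).continuousOn
  exact ⟨C, fun _ u hu => hC u (ball_subset_closedBall hu)⟩

theorem FB.congr {R : ℝ} {z z' : ι → E2 → E2} (h : FB R z)
    (he : ∀ i, ∀ u ∈ ball (0 : E2) R, z' i u = z i u) : FB R z' := by
  refine ⟨fun i => (h.1 i).congr (he i), fun k => ?_⟩
  obtain ⟨C, hC⟩ := h.2 k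
  refine ⟨C, fun i u hu => ?_⟩
  have h1 : z' i =ᶠ[𝓝 u] z i := by
    filter_upwards [isOpen_ball.mem_nhds hu] with v hv
    exact he i v hv
  rw [(h1.iteratedFDeriv ℝ k).eq_of_nhds]
  exact hC i u hu

theorem FB.post {R : ℝ} (hR : 0 < R) {z : ι → E2 → E2} (hz : FB R z) {f : E2 → E2}
    (hf : ContDiff ℝ ∞ f) : FB R (fun i u => f (z i u)) := by
  obtain ⟨C, hC⟩ := hz.2 0
  set M : ℝ := max C 0 + 1 with hM
  have hM0 : 0 < M := by
    have := le_max_right C 0
    linarith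
  have hb : ∀ i, ∀ u ∈ ball (0 : E2) R, ‖z i u‖ < M := fun i u hu => by
    have h1 := hC i u hu
    rw [norm_iteratedFDeriv_zero] at h1
    have := le_max_left C 0
    linarith
  set s : ℝ := R / M with hs
  have hs0 : 0 < s := by positivity
  have h1 : FB R (fun i u => s • z i u) := by
    refine ⟨fun i => (hz.1 i).const_smul s, fun k => ?_⟩
    obtain ⟨D, hD⟩ := hz.2 k
    refine ⟨s * D, fun i u hu => ?_⟩
    have h2 : iteratedFDeriv ℝ k (fun u => s • z i u) u = s • iteratedFDeriv ℝ k (z i) u := by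
      have h3 : ContDiffAt ℝ k (z i) u :=
        ((hz.1 i).of_le (by exact_mod_cast le_top)).contDiffAt (isOpen_ball.mem_nhds hu)
      exact iteratedFDeriv_const_smul_apply (a := s) h3
    rw [h2, norm_smul, Real.norm_of_nonneg hs0.le]
    exact mul_le_mul_of_nonneg_left (hD i u hu) hs0.le
  have h2 : ContDiff ℝ ∞ (fun y : E2 => f (s⁻¹ • y)) := hf.comp (contDiff_const_smul s⁻¹)
  have h3 := (FB.of_contDiff (ι := ι) h2 R).comp h1 (fun i u hu => by
    rw [mem_ball_zero_iff, norm_smul, Real.norm_of_nonneg hs0.le]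
    have h4 := hb i u hu
    calc s * ‖z i u‖ < s * M := mul_lt_mul_of_pos_left h4 hs0
      _ = R := by rw [hs]; field_simp)
  refine h3.congr fun i u _ => ?_
  rw [smul_smul, inv_mul_cancel₀ hs0.ne', one_smul]

/-- interpolation: `C⁰` distance `η` and bounded derivatives give `C^k` distance `C η^{1/2}` -/
theorem interp_rate (k : ℕ) (M : ℝ) : ∃ C : ℝ, 0 ≤ C ∧ ∀ (f g : E2 → E2),
    ContDiffOn ℝ ∞ f (ball 0 (3 / 2)) → ContDiffOn ℝ ∞ g (ball 0 (3 / 2)) →
    (∀ u ∈ ball (0 : E2) (3 / 2), ‖iteratedFDeriv ℝ (2 * k + 1) f u‖ ≤ M) →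
    (∀ u ∈ ball (0 : E2) (3 / 2), ‖iteratedFDeriv ℝ (2 * k + 1) g u‖ ≤ M) →
    ∀ η : ℝ, 0 < η → η ≤ 1 → (∀ u ∈ ball (0 : E2) (3 / 2), ‖f u - g u‖ ≤ η) →
    ∀ u ∈ closedBall (0 : E2) 1,
      ‖iteratedFDeriv ℝ k f u - iteratedFDeriv ℝ k g u‖ ≤ C * η ^ (1 / 2 : ℝ) := by
  obtain ⟨A, hA, hI⟩ := H545.exists_interp_scale.{0} k (2 * k + 1) (by omega)
  refine ⟨A * (4 ^ k + |2 * M|), by positivity,
    fun f g hf hg hfM hgM η hη0 hη1 hfg u hu => ?_⟩
  set h' : ℝ := η ^ (1 / (2 * k + 1 : ℝ)) with hh'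
  set h : ℝ := h' / 4 with hh
  have hk0 : (0 : ℝ) < 2 * k + 1 := by positivity
  have hh0' : 0 < h' := Real.rpow_pos_of_pos hη0 _
  have hh1' : h' ≤ 1 := Real.rpow_le_one hη0.le hη1 (by positivity)
  have hh0 : 0 < h := by positivity
  have hh1 : h ≤ 1 / 4 := by rw [hh]; linarith
  have hsub : ∀ y ∈ closedBall u h, y ∈ ball (0 : E2) (3 / 2) := by
    intro y hy
    rw [mem_closedBall_zero_iff] at hu
    rw [mem_ball_zero_iff]
    rw [mem_closedBall, dist_eq_norm] at hy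
    calc ‖y‖ = ‖u + (y - u)‖ := by rw [add_sub_cancel]
      _ ≤ ‖u‖ + ‖y - u‖ := norm_add_le _ _
      _ ≤ 1 + 1 / 4 := add_le_add hu (hy.trans hh1)
      _ < 3 / 2 := by norm_num
  have hcd : ∀ F : E2 → E2, ContDiffOn ℝ ∞ F (ball 0 (3 / 2)) → ∀ n : ℕ, ∀ y ∈ closedBall u h,
      ContDiffAt ℝ n F y := fun F hF n y hy =>
    contDiffAt_infty.1 (hF.contDiffAt (isOpen_ball.mem_nhds (hsub y hy))) n
  have hu0 : u ∈ closedBall u h := mem_closedBall_self hh0.le
  have h1 := hI E2 E2 (f - g) u h η |2 * M| hh0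
    (fun y hy => (hcd f hf _ y hy).sub (hcd g hg _ y hy))
    (fun y hy => hfg y (hsub y hy))
    (fun y hy => by
      rw [iteratedFDeriv_sub_apply (hcd f hf _ y hy) (hcd g hg _ y hy)]
      refine (norm_sub_le _ _).trans ?_
      have e1 := hfM y (hsub y hy)
      have e2 := hgM y (hsub y hy)
      have e3 := le_abs_self (2 * M)
      linarith)
  rw [iteratedFDeriv_sub_apply (hcd f hf k u hu0) (hcd g hg k u hu0)] at h1
  refine h1.trans ?_
  rw [mul_assoc]
  refine mul_le_mul_of_nonneg_left ?_ hA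
  rw [add_mul]
  refine add_le_add ?_ ?_
  · have e0 : h⁻¹ ^ k = 4 ^ k * h'⁻¹ ^ k := by
      rw [hh, inv_div, div_eq_mul_inv, mul_pow]
    have e2 : h'⁻¹ ^ k * η = η ^ (1 - 1 / (2 * k + 1 : ℝ) * k) := by
      rw [hh', ← Real.rpow_neg hη0.le, ← Real.rpow_natCast, ← Real.rpow_mul hη0.le]
      nth_rewrite 2 [← Real.rpow_one η]
      rw [← Real.rpow_add hη0]
      congr 1
      ring
    have e3 : η ^ (1 - 1 / (2 * k + 1 : ℝ) * k) ≤ η ^ (1 / 2 : ℝ) := by
      refine Real.rpow_le_rpow_of_exponent_ge hη0 hη1 ?_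
      have : 1 / (2 * k + 1 : ℝ) * k ≤ 1 / 2 := by
        rw [div_mul_eq_mul_div, div_le_div_iff₀ hk0 (by norm_num)]
        nlinarith
      linarith
    rw [e0, mul_assoc, e2]
    exact mul_le_mul_of_nonneg_left e3 (by positivity)
  · have e50 : h ^ (2 * k + 1 - k) ≤ h' ^ (2 * k + 1 - k) :=
      pow_le_pow_left₀ hh0.le (by rw [hh]; linarith) _
    have e5 : h' ^ (2 * k + 1 - k) = η ^ (1 / (2 * k + 1 : ℝ) * (k + 1)) := by
      rw [hh', ← Real.rpow_natCast, ← Real.rpow_mul hη0.le, show 2 * k + 1 - k = k + 1 by omega]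
      push_cast
      ring_nf
    have e6 : η ^ (1 / (2 * k + 1 : ℝ) * (k + 1)) ≤ η ^ (1 / 2 : ℝ) := by
      refine Real.rpow_le_rpow_of_exponent_ge hη0 hη1 ?_
      rw [div_mul_eq_mul_div, div_le_div_iff₀ (by norm_num) hk0]
      nlinarith
    rw [mul_comm]
    exact mul_le_mul_of_nonneg_left (e50.trans (e5 ▸ e6)) (abs_nonneg _)

/-- Lipschitz bound of a smooth function on a ball -/
theorem lip_ball {f : E2 → E2} {r : ℝ} (hf : ∀ u ∈ closedBall (0 : E2) r, DifferentiableAt ℝ f u)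
    {C : ℝ} (hC : ∀ u ∈ closedBall (0 : E2) r, ‖fderiv ℝ f u‖ ≤ C) {u v : E2}
    (hu : u ∈ closedBall (0 : E2) r) (hv : v ∈ closedBall (0 : E2) r) :
    ‖f u - f v‖ ≤ C * ‖u - v‖ :=
  (convex_closedBall (0 : E2) r).norm_image_sub_le_of_norm_fderiv_le (𝕜 := ℝ) hf hC hv hu

end Vale.Agent.P207.N3.H147
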