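import Vale.Agent.P207.H575.T3.Seen
import Vale.Agent.P207.N3.H147.Axis

/-!
# P207, line N3 (P4): calculus of the transition maps `τ`
-/

open Set Filter Topology Metric MeasureTheory
open scoped ContDiff

noncomputable section

namespace Vale.Agent.P207.N3.H147

variable {Γ X B : Type} [Group Γ] [MetricSpace X] [ProperSpace X] [MulAction Γ X]
  [IsIsometricSMul Γ X] [TopologicalSpace B] [CompactSpace B] [T2Space B] [MulAction Γ B]
  [ContinuousConstSMul Γ B] {L : Leaf Γ X B}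

theorem cb3 {r : ℝ} (hr : r ≤ 3) {u : E2} (hu : u ∈ ball (0 : E2) r) :
    u ∈ closedBall (0 : E2) 3 := ball_subset_closedBall (ball_subset_ball hr hu)

theorem mem_dm {x y : X} {u v : E2} (hu : u ∈ ball (0 : E2) 3) (hv : v ∈ ball (0 : E2) 3)
    (h : L.e x u = L.e y v) : u ∈ L.dm x y := ⟨hu, v, hv, h.symm⟩

/-- characterisation of the value of `τ` -/
theorem tau_unique {x y : X} {u v : E2} (hv : v ∈ closedBall (0 : E2) 3)
    (h : L.e x u = L.e y v) : L.τ x y u = v := by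
  rw [L.tau_eq, h, L.inv_e hv]

theorem tau_comp {x y z : X} {u : E2} (hu : u ∈ L.dm x y) (hv : L.τ x y u ∈ L.dm y z) :
    u ∈ L.dm x z ∧ L.τ x z u = L.τ y z (L.τ x y u) := by
  have h1 := L.e_tau hv
  rw [L.e_tau hu] at h1
  have h2 := L.tau_mem hv
  exact ⟨mem_dm hu.1 h2 h1.symm, tau_unique (ball_subset_closedBall h2) h1.symm⟩

theorem dm_smul (g : Γ) (x y : X) : L.dm (g • x) (g • y) = L.dm x y := by
  ext u
  constructor
  · rintro ⟨hu, v, hv, h⟩
    rw [L.e_smul g y v (ball_subset_closedBall hv), L.e_smul g x u (ball_subset_closedBall hu)] at h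
    exact ⟨hu, v, hv, smul_left_cancel _ h⟩
  · rintro ⟨hu, v, hv, h⟩
    refine ⟨hu, v, hv, ?_⟩
    rw [L.e_smul g y v (ball_subset_closedBall hv), L.e_smul g x u (ball_subset_closedBall hu), h]

theorem tau_smul (g : Γ) {x y : X} {u : E2} (hu : u ∈ L.dm x y) :
    L.τ (g • x) (g • y) u = L.τ x y u := by
  refine tau_unique (ball_subset_closedBall (L.tau_mem hu)) ?_
  rw [L.e_smul g y _ (ball_subset_closedBall (L.tau_mem hu)),
    L.e_smul g x u (ball_subset_closedBall hu.1), L.e_tau hu]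

theorem isom_mem {a : O2} {u : E2} {r : ℝ} (hu : u ∈ ball (0 : E2) r) :
    a u ∈ ball (0 : E2) r := by
  rw [mem_ball_zero_iff] at *
  rwa [a.norm_map]

theorem isom_mem' {a : O2} {u : E2} {r : ℝ} (hu : u ∈ closedBall (0 : E2) r) :
    a u ∈ closedBall (0 : E2) r := by
  rw [mem_closedBall_zero_iff] at *
  rwa [a.norm_map]

theorem dm_rot_left (a : O2) {x y : X} {u : E2} (hu : u ∈ ball (0 : E2) 3) :
    u ∈ L.dm (L.rot a x) y ↔ a u ∈ L.dm x y := by
  constructor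
  · rintro ⟨_, v, hv, h⟩
    rw [L.e_rot a x u (ball_subset_closedBall hu)] at h
    exact ⟨isom_mem hu, v, hv, h⟩
  · rintro ⟨_, v, hv, h⟩
    refine ⟨hu, v, hv, ?_⟩
    rw [L.e_rot a x u (ball_subset_closedBall hu)]
    exact h

theorem tau_rot_left (a : O2) (x y : X) {u : E2} (hu : u ∈ closedBall (0 : E2) 3) :
    L.τ (L.rot a x) y u = L.τ x y (a u) := by
  rw [L.tau_eq, L.tau_eq, L.e_rot a x u hu]

theorem tau_zero {x y : X} (h : L.ep x = L.ep y) : L.τ x y 0 = 0 := by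
  refine tau_unique (by simp) ?_
  rw [L.e_zero, L.e_zero, h]

theorem zero_mem_dm {x y : X} (h : L.ep x = L.ep y) : (0 : E2) ∈ L.dm x y :=
  mem_dm (mem_ball_self (by norm_num)) (mem_ball_self (by norm_num))
    (by rw [L.e_zero, L.e_zero, h])

theorem tau_mem_dm {x y : X} {u : E2} (hu : u ∈ L.dm x y) : L.τ x y u ∈ L.dm y x :=
  mem_dm (L.tau_mem hu) hu.1 (L.e_tau hu)

theorem tau_tau {x y : X} {u : E2} (hu : u ∈ L.dm x y) : L.τ y x (L.τ x y u) = u :=
  tau_unique (ball_subset_closedBall hu.1) (L.e_tau hu)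

theorem tau_contDiffAt {x y : X} (h : L.em x = L.em y) {u : E2} (hu : u ∈ L.dm x y) :
    ContDiffAt ℝ ∞ (L.τ x y) u := (L.tau_smooth x y h).contDiffAt ((L.isOpen_dm x y).mem_nhds hu)

theorem tau_diffAt {x y : X} (h : L.em x = L.em y) {u : E2} (hu : u ∈ L.dm x y) :
    DifferentiableAt ℝ (L.τ x y) u := (tau_contDiffAt h hu).differentiableAt (by simp)

/-- the derivative of the transition map is invertible -/
theorem fderiv_tau_comp {x y : X} (h : L.em x = L.em y) {u : E2} (hu : u ∈ L.dm x y) :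
    fderiv ℝ (L.τ y x) (L.τ x y u) ∘L fderiv ℝ (L.τ x y) u = ContinuousLinearMap.id ℝ E2 := by
  rw [← fderiv_comp u (tau_diffAt h.symm (tau_mem_dm hu)) (tau_diffAt h hu)]
  have h1 : L.τ y x ∘ L.τ x y =ᶠ[𝓝 u] id := by
    filter_upwards [(L.isOpen_dm x y).mem_nhds hu] with v hv
    exact tau_tau hv
  rw [h1.fderiv_eq, fderiv_id]

theorem det_ne {A C : E2 →L[ℝ] E2} (h : C ∘L A = ContinuousLinearMap.id ℝ E2) : A.det ≠ 0 := by
  intro h0
  have h1 : (C ∘L A).det = C.det * A.det := by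
    have := LinearMap.det_comp (C : E2 →ₗ[ℝ] E2) (A : E2 →ₗ[ℝ] E2)
    exact this
  rw [h, h0, mul_zero] at h1
  simp [ContinuousLinearMap.det] at h1

theorem det_tau_ne {x y : X} (h : L.em x = L.em y) {u : E2} (hu : u ∈ L.dm x y) :
    (fderiv ℝ (L.τ x y) u).det ≠ 0 := det_ne (fderiv_tau_comp h hu)

/-! ### The contraction `R t x = τ (φ t x) x`, `t ≥ t1` -/

/-- `τ (φ t x) x` -/
def R (L : Leaf Γ X B) (t : ℝ) (x : X) : E2 → E2 := L.τ (L.φ t x) x

theorem R_mem_dm (x : X) {t : ℝ} (ht : L.t1 ≤ t) {u : E2} (hu : u ∈ ball (0 : E2) 3) :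
    u ∈ L.dm (L.φ t x) x := by rw [L.dm_engulf x ht]; exact hu

theorem R_mem (x : X) {t : ℝ} (ht : L.t1 ≤ t) {u : E2} (hu : u ∈ closedBall (0 : E2) 3) :
    R L t x u ∈ ball (0 : E2) 1 := by
  rw [R, L.tau_eq]
  exact L.inv_mem_ball (by norm_num) (L.engulf x t ht ⟨u, hu, rfl⟩)

theorem e_R (x : X) {t : ℝ} (ht : L.t1 ≤ t) {u : E2} (hu : u ∈ closedBall (0 : E2) 3) :
    L.e x (R L t x u) = L.e (L.φ t x) u := by
  rw [R, L.tau_eq]
  exact L.e_inv (image_mono (fun v hv => cb3 (by norm_num) hv) (L.engulf x t ht ⟨u, hu, rfl⟩))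

theorem R_smooth (x : X) {t : ℝ} (ht : L.t1 ≤ t) : ContDiffOn ℝ ∞ (R L t x) (ball 0 3) := by
  have h := L.tau_smooth (L.φ t x) x (L.em_φ t x)
  have h1 : dom L.e (L.φ t x) x = ball 0 3 := L.dm_engulf x ht
  rw [h1] at h
  exact h

theorem R_zero (x : X) (t : ℝ) : R L t x 0 = 0 := tau_zero (L.ep_φ t x)

theorem R_comp (x : X) {s t : ℝ} (hs : L.t1 ≤ s) (ht : L.t1 ≤ t) {u : E2}
    (hu : u ∈ closedBall (0 : E2) 3) :
    R L (s + t) x u = R L t x (R L s (L.φ t x) u) := by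
  have h0 := L.t1_pos
  refine tau_unique ?_ ?_
  · exact cb3 (by norm_num) (R_mem x ht (cb3 (by norm_num) (R_mem _ hs hu)))
  · rw [e_R x ht (cb3 (by norm_num) (R_mem _ hs hu)), e_R _ hs hu, ← L.φ_add]

variable (L) in
/-- bounds of all derivatives of `R t x` -/
theorem R_bound (k : ℕ) : ∃ C : ℝ, 1 ≤ C ∧ ∀ x, ∀ t ≥ L.t1, ∀ u ∈ ball (0 : E2) 3,
    ‖iteratedFDeriv ℝ k (R L t x) u‖ ≤ C ∧
    (1 ≤ k → ‖iteratedFDeriv ℝ k (R L t x) u‖ ≤ C * Real.exp (-L.χ * t)) := by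
  rcases Nat.eq_zero_or_pos k with rfl | hk
  · refine ⟨1, le_rfl, fun x t ht u hu => ⟨?_, fun h => absurd h (by norm_num)⟩⟩
    rw [norm_iteratedFDeriv_zero]
    have := R_mem x ht (ball_subset_closedBall hu)
    rw [mem_ball_zero_iff] at this
    exact this.le
  · obtain ⟨C, hC⟩ := L.contract k hk
    refine ⟨max C 1, le_max_right _ _, fun x t ht u hu => ?_⟩
    have h1 := hC x t ht u hu
    have h2 : Real.exp (-L.χ * t) ≤ 1 := by
      rw [Real.exp_le_one_iff]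
      nlinarith [L.χ_pos, L.t1_pos, mul_nonneg L.χ_pos.le (L.t1_pos.le.trans ht)]
    have h3 : C * Real.exp (-L.χ * t) ≤ max C 1 * Real.exp (-L.χ * t) :=
      mul_le_mul_of_nonneg_right (le_max_left _ _) (Real.exp_nonneg _)
    refine ⟨?_, fun _ => h1.trans h3⟩
    refine (h1.trans h3).trans ?_
    have h4 : (0 : ℝ) ≤ max C 1 := le_trans zero_le_one (le_max_right _ _)
    calc max C 1 * Real.exp (-L.χ * t) ≤ max C 1 * 1 := mul_le_mul_of_nonneg_left h2 h4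
      _ = max C 1 := mul_one _

variable (L) in
/-- Lipschitz bound -/
theorem R_lip : ∃ C : ℝ, 1 ≤ C ∧ ∀ x, ∀ t ≥ L.t1, (∀ u ∈ ball (0 : E2) 3,
      ‖fderiv ℝ (R L t x) u‖ ≤ C * Real.exp (-L.χ * t)) ∧
    ∀ u ∈ ball (0 : E2) 3, ∀ v ∈ ball (0 : E2) 3,
      ‖R L t x u - R L t x v‖ ≤ C * Real.exp (-L.χ * t) * ‖u - v‖ := by
  obtain ⟨C, hC1, hC⟩ := R_bound L 1
  have h1 : ∀ x, ∀ t ≥ L.t1, ∀ u ∈ ball (0 : E2) 3,
      ‖fderiv ℝ (R L t x) u‖ ≤ C * Real.exp (-L.χ * t) := by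
    intro x t ht u hu
    have := (hC x t ht u hu).2 le_rfl
    rwa [norm_iteratedFDeriv_one] at this
  refine ⟨C, hC1, fun x t ht => ⟨h1 x t ht, fun u hu v hv => ?_⟩⟩
  exact (convex_ball (0 : E2) 3).norm_image_sub_le_of_norm_fderiv_le
    (fun w hw => ((R_smooth x ht).contDiffAt (isOpen_ball.mem_nhds hw)).differentiableAt (by simp))
    (fun w hw => h1 x t ht w hw) hv hu

end Vale.Agent.P207.N3.H147
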