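import Vale.Agent.P207.N3.H147.Chart
import Vale.Agent.P207.N3.H147.Axis
import Vale.Agent.P207.H575.T3.Top
import Vale.Agent.P207.N3.Top.Defs

/-!
# P207, line N3 (P4, E2): inclusions of discs
-/

open Set Filter Topology Metric MeasureTheory
open scoped ContDiff

noncomputable section

namespace Vale.Agent.P207.N3.H147

variable {Γ X B : Type} [Group Γ] [MetricSpace X] [ProperSpace X] [MulAction Γ X]
  [IsIsometricSMul Γ X] [TopologicalSpace B] [CompactSpace B] [T2Space B] [MulAction Γ B]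
  [ContinuousConstSMul Γ B] (L : Leaf Γ X B)

/-- the disc `e x (closedBall 3)` is contained in `e y (ball r)` -/
def Inc (r : ℝ) (x y : X) : Prop := L.e x '' closedBall 0 3 ⊆ L.e y '' ball 0 r

theorem isOpen_img {r : ℝ} (hr : r ≤ 3) : IsOpen {p : X × B | p.2 ∈ L.e p.1 '' ball 0 r} := by
  rw [isOpen_iff_mem_nhds]
  rintro ⟨x₀, η₀⟩ ⟨u₀, hu₀, he⟩
  replace he : L.e x₀ u₀ = η₀ := he
  subst he
  obtain ⟨h1, h2⟩ := L.inv_tendsto (l := 𝓝 ((x₀, L.e x₀ u₀) : X × B)) (x := fun p => p.1)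
    (b := fun p => p.2) (x₀ := x₀) (u₀ := u₀) continuousAt_fst continuousAt_snd
    (ball_subset_ball hr hu₀)
  filter_upwards [h1, h2.eventually (isOpen_ball.mem_nhds hu₀)] with p hp hp2
  exact ⟨L.inv p.1 p.2, hp2, L.e_inv (image_mono ball_subset_closedBall hp)⟩

theorem isOpen_Inc {r : ℝ} (hr : r ≤ 3) : IsOpen {p : X × X | Inc L r p.1 p.2} := by
  rw [isOpen_iff_mem_nhds]
  rintro ⟨x₀, y₀⟩ h
  have hK := isCompact_closedBall (0 : E2) 3
  have key := hK.eventually_forall_of_forall_eventually (x₀ := ((x₀, y₀) : X × X))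
    (P := fun p u => u ∈ closedBall (0 : E2) 3 → L.e p.1 u ∈ L.e p.2 '' ball 0 r) (fun u hu => by
    have h1 : L.e x₀ u ∈ L.e y₀ '' ball 0 r := h ⟨u, hu, rfl⟩
    have h2 : {p : X × B | p.2 ∈ L.e p.1 '' ball 0 r} ∈ 𝓝 (y₀, L.e x₀ u) :=
      (isOpen_img L hr).mem_nhds h1
    have h3 : Tendsto (fun z : (X × X) × E2 => (z.1.1, z.2))
        (𝓝[{z | z.2 ∈ closedBall (0 : E2) 3}] ((x₀, y₀), u)) (𝓝[univ ×ˢ closedBall 0 3] (x₀, u)) := by
      refine tendsto_nhdsWithin_iff.2 ⟨?_, ?_⟩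
      · exact (Continuous.tendsto (by fun_prop) _).mono_left nhdsWithin_le_nhds
      · filter_upwards [self_mem_nhdsWithin] with z hz
        exact ⟨mem_univ _, hz⟩
    have h4 := (L.e_cont (x₀, u) ⟨mem_univ _, hu⟩).tendsto.comp h3
    have h5 : Tendsto (fun z : (X × X) × E2 => (z.1.2, L.e z.1.1 z.2))
        (𝓝[{z | z.2 ∈ closedBall (0 : E2) 3}] ((x₀, y₀), u)) (𝓝 (y₀, L.e x₀ u)) := by
      refine Tendsto.prodMk_nhds ?_ h4
      exact (Continuous.tendsto (by fun_prop : Continuous fun z : (X × X) × E2 => z.1.2)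
        _).mono_left nhdsWithin_le_nhds
    have h6 := h5.eventually h2
    rwa [eventually_nhdsWithin_iff] at h6)
  filter_upwards [key] with p hp
  rintro _ ⟨u, hu, rfl⟩
  exact hp u hu hu

variable {L}

/-- transitions between frames close to a compact set of pairs -/
theorem thick {P₀ : Set (X × X)} (hP : IsCompact P₀) (h : ∀ p ∈ P₀, Inc L 1 p.1 p.2)
    {U : Set (X × X)} (hU : IsOpen U) (hPU : P₀ ⊆ U) :
    ∃ δ : ℝ, 0 < δ ∧ (∀ q ∈ cthickening δ P₀, Inc L 1 q.1 q.2 ∧ q ∈ U) ∧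
      ∀ j : ℕ, ∃ C : ℝ, ∀ q ∈ cthickening δ P₀, L.em q.1 = L.em q.2 →
        ∀ u ∈ closedBall (0 : E2) 2, ‖iteratedFDeriv ℝ j (L.τ q.1 q.2) u‖ ≤ C := by
  obtain ⟨δ, hδ, hδ1⟩ := hP.exists_cthickening_subset_open
    ((isOpen_Inc L (by norm_num : (1:ℝ) ≤ 3)).inter hU) (fun p hp => ⟨h p hp, hPU hp⟩)
  refine ⟨δ, hδ, fun q hq => hδ1 hq, fun j => ?_⟩
  set S : Set ((X × X) × E2) :=
    (cthickening δ P₀ ∩ {q | L.em q.1 = L.em q.2}) ×ˢ closedBall (0 : E2) 2 with hS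
  have hcl : IsClosed {q : X × X | L.em q.1 = L.em q.2} :=
    isClosed_eq (L.em_cont.comp continuous_fst) (L.em_cont.comp continuous_snd)
  have hSc : IsCompact S :=
    ((hP.cthickening).inter_right hcl).prod (isCompact_closedBall 0 2)
  obtain ⟨C, hC⟩ := hSc.exists_bound_of_continuousOn ((L.tau_cont j).mono (by
    rintro ⟨q, u⟩ ⟨⟨hq1, hq2⟩, hu⟩
    refine ⟨hq2, closedBall_subset_ball (by norm_num) hu, ?_⟩
    exact image_mono (ball_subset_ball (by norm_num))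
      ((hδ1 hq1).1 ⟨u, closedBall_subset_closedBall (by norm_num) hu, rfl⟩)))
  exact ⟨C, fun q hq he u hu => hC (q, u) ⟨⟨hq, he⟩, hu⟩⟩

theorem Inc.comp {x y z : X} (h : Inc L 1 x y) (h' : Inc L 1 y z) : Inc L 1 x z := by
  rintro _ ⟨u, hu, rfl⟩
  obtain ⟨v, hv, he⟩ := h ⟨u, hu, rfl⟩
  rw [← he]
  exact h' ⟨v, cb3 (by norm_num) hv, rfl⟩

theorem Inc_φ (x : X) {t : ℝ} (ht : L.t1 ≤ t) : Inc L 1 (L.φ t x) x := L.engulf x t ht

theorem Inc.mem_dm {x y : X} (h : Inc L 1 x y) {u : E2} (hu : u ∈ ball (0 : E2) 3) :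
    u ∈ L.dm x y :=
  ⟨hu, image_mono (ball_subset_ball (by norm_num)) (h ⟨u, ball_subset_closedBall hu, rfl⟩)⟩

theorem Inc.tau_mem {x y : X} (h : Inc L 1 x y) {u : E2} (hu : u ∈ closedBall (0 : E2) 3) :
    L.τ x y u ∈ ball (0 : E2) 1 ∧ L.e y (L.τ x y u) = L.e x u := by
  obtain ⟨v, hv, he⟩ := h ⟨u, hu, rfl⟩
  have h1 : L.τ x y u = v := by
    change L.inv y (L.e x u) = v
    rw [← he]
    exact L.inv_e (cb3 (by norm_num) hv)
  rw [h1]
  exact ⟨hv, he⟩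

theorem Inc.smooth {x y : X} (h : Inc L 1 x y) (he : L.em x = L.em y) :
    ContDiffOn ℝ ∞ (L.τ x y) (ball 0 3) :=
  (L.tau_smooth x y he).mono fun _ hu => h.mem_dm hu

variable {o : Orb L}

/-- the flow shift of `β^J • y` to the level `lv o.x + 2 t1` -/
def sh (o : Orb L) (J : ℕ) (y : X) : ℝ := L.lv y + J * o.l - L.lv o.x - 2 * L.t1

/-- the shifted frame -/
def vf (o : Orb L) (J : ℕ) (y : X) : X := L.φ (-(sh o J y)) (o.β ^ J • y)

theorem vf_cont (J : ℕ) : Continuous (vf o J) := by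
  have h1 : Continuous (sh o J) := by
    unfold sh
    have := L.lv_cont
    fun_prop
  exact L.φ_cont.comp (h1.neg.prodMk (continuous_const_smul _))

theorem em_vf (J : ℕ) {y : X} (hy : L.em y = o.neg) : L.em (vf o J y) = o.neg := by
  rw [vf, L.em_φ, L.em_smul, hy]
  exact Ax.pow_smul_em o.ax J

theorem φ_vf (J : ℕ) (y : X) : L.φ (sh o J y) (vf o J y) = o.β ^ J • y := φ_sub_cancel L _ _

theorem lv_vf (J : ℕ) {y : X} (hy : L.em y = o.neg) :
    L.lv (vf o J y) = L.lv o.x + 2 * L.t1 := by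
  rw [vf, L.lv_φ, Ax.lv_pow_smul o.ax hy, sh]
  ring

theorem Inc_of_lv {v : X} (h1 : L.em v = o.neg) (h2 : L.ep v = o.pos)
    (h3 : L.lv v = L.lv o.x + 2 * L.t1) : Inc L 1 v o.x := by
  obtain ⟨a, ha⟩ := L.frame_unique (L.φ (2 * L.t1) o.x) v (by rw [L.em_φ]; exact h1.symm)
    (by rw [ep_φ]; exact h2.symm) (by rw [L.lv_φ]; exact h3.symm)
  rintro _ ⟨u, hu, rfl⟩
  rw [ha, L.e_rot a _ u hu]
  refine L.engulf o.x (2 * L.t1) (by have := L.t1_pos; linarith) ⟨a u, ?_, rfl⟩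
  rw [mem_closedBall_zero_iff, LinearIsometryEquiv.norm_map]
  exact mem_closedBall_zero_iff.1 hu

/-- **the choice of `J`** -/
theorem exists_J {Q : Set X} (hQ : IsCompact Q) (hQx : ∀ y ∈ Q, L.em y = o.neg) :
    ∃ J : ℕ, ∀ y ∈ Q, L.t1 ≤ sh o J y ∧ Inc L 1 (vf o J y) o.x := by
  obtain ⟨U, hU, hUc, hUn⟩ := exists_mem_nhds_isClosed_subset
    (isOpen_compl_singleton.mem_nhds (show o.pos ∈ ({o.neg}ᶜ : Set B) from
      fun h => L.em_ne_ep o.x (mem_singleton_iff.1 h).symm))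
  have hV := L.hopf_proper ({o.neg} ×ˢ U) (isCompact_singleton.prod hUc.isCompact)
    (by
      rintro ⟨p, q⟩ ⟨hp, hq⟩ h
      have h1 : p = o.neg := hp
      have h2 : p = q := h
      exact hUn hq (by rw [← h2, h1]; rfl)) (|L.lv o.x + 2 * L.t1|)
  set Bad : Set X := {x | (L.em x, L.ep x) ∈ ({o.neg} ×ˢ U : Set (B × B)) ∧
    |L.lv x| ≤ |L.lv o.x + 2 * L.t1|} ∩ ({v | L.lv v = L.lv o.x + 2 * L.t1} ∩
      {v | Inc L 1 v o.x}ᶜ) with hBad
  have hBadc : IsCompact Bad := by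
    refine hV.inter_right (IsClosed.inter ?_ ?_)
    · exact isClosed_eq L.lv_cont continuous_const
    · rw [isClosed_compl_iff]
      exact (isOpen_Inc L (by norm_num : (1:ℝ) ≤ 3)).preimage
        (f := fun v : X => (v, o.x)) (by fun_prop)
  have hBp : o.pos ∉ L.ep '' Bad := by
    rintro ⟨v, ⟨⟨hv1, _⟩, hv2, hv3⟩, hv4⟩
    exact hv3 (Inc_of_lv hv1.1 hv4 hv2)
  have hW : U ∩ (L.ep '' Bad)ᶜ ∈ 𝓝 o.pos :=
    inter_mem hU ((hBadc.image (ep_cont L)).isClosed.isOpen_compl.mem_nhds hBp)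
  have hnorth := Ax.north o.ax (hQ.image (ep_cont L)) (by
    rintro ⟨y, hy, he⟩
    exact L.em_ne_ep y ((hQx y hy).trans he.symm)) hW
  obtain ⟨M, hM⟩ := hQ.exists_bound_of_continuousOn (f := L.lv) L.lv_cont.continuousOn
  have hlev : ∀ᶠ J : ℕ in atTop, M + |L.lv o.x| + 3 * L.t1 ≤ (J : ℝ) * o.l :=
    (tendsto_natCast_atTop_atTop.atTop_mul_const o.ax.pos).eventually_ge_atTop _
  obtain ⟨J, hJ1, hJ2⟩ := (hnorth.and hlev).exists
  refine ⟨J, fun y hy => ⟨?_, ?_⟩⟩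
  · have h1 := hM y hy
    rw [Real.norm_eq_abs] at h1
    have h2 := neg_abs_le (L.lv y)
    have h3 := le_abs_self (L.lv o.x)
    unfold sh
    linarith
  · by_contra hbad
    have h1 := hJ1 (L.ep y) (mem_image_of_mem _ hy)
    have h2 : L.ep (vf o J y) = o.β ^ J • L.ep y := by rw [vf, ep_φ, ep_smul]
    refine h1.2 ⟨vf o J y, ⟨⟨⟨em_vf J (hQx y hy), ?_⟩, ?_⟩, lv_vf J (hQx y hy), hbad⟩, h2⟩
    · rw [h2]; exact h1.1
    · rw [lv_vf J (hQx y hy)]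

end Vale.Agent.P207.N3.H147
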