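import Vale.Agent.P207.N3.H147.Hold
import Vale.Agent.P207.N3.H147.Incl
import Vale.Agent.P207.N3.H147.Bdd
import Vale.Agent.P207.N3.H310.P4

/-!
# P207, line N3 (P4, E2): the field `conv` of the forward coordinates
-/

open Set Filter Topology Metric MeasureTheory
open scoped ContDiff

noncomputable section

namespace Vale.Agent.P207.N3.H147

variable {Γ X B : Type} [Group Γ] [MetricSpace X] [ProperSpace X] [MulAction Γ X]
  [IsIsometricSMul Γ X] [TopologicalSpace B] [CompactSpace B] [T2Space B] [MulAction Γ B]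
  [ContinuousConstSMul Γ B] (L : Leaf Γ X B)

/-- `C⁰` Hölder estimate of a transition to a much larger disc, the exponent depends only on `L` -/
theorem q_close : ∃ C α : ℝ, 0 ≤ C ∧ 0 < α ∧ ∀ (v w v' w' : X) (s : ℝ), L.t1 ≤ s →
    L.em v = L.em w → L.em v' = L.em w' → |L.lv v - L.lv w| ≤ 3 * L.t1 →
    |L.lv v' - L.lv w'| ≤ 3 * L.t1 → Inc L 1 v w → Inc L 1 v' w' →
    ∀ D : ℝ, (∀ r ∈ closedBall (0 : E2) 1, ‖fderiv ℝ (L.τ v' w') r‖ ≤ D) →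
    ∀ ε : ℝ, 0 < ε → ε ≤ 1 → (∀ t ∈ Icc 0 s, dist (L.φ t v) (L.φ t v') ≤ ε) → dist w w' ≤ ε →
    ∀ u ∈ closedBall (0 : E2) 2,
      ‖L.τ (L.φ s v) w u - L.τ (L.φ s v') w' u‖ ≤ C * (1 + D) * ε ^ α := by
  obtain ⟨C₁, α₁, hC₁, hα₁, h1⟩ := R_holder0 L
  obtain ⟨C₂, α₂, hα₂, h2⟩ := L.holder 0 (3 * L.t1)
  refine ⟨max C₁ (|C₂| * 2 ^ α₂), min α₁ α₂, le_max_of_le_left hC₁, lt_min hα₁ hα₂,
    fun v w v' w' s hs e1 e2 l1 l2 i1 i2 D hD ε hε hε1 hd hw u hu => ?_⟩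
  have ht1 := L.t1_pos
  have hu3 : u ∈ closedBall (0 : E2) 3 := closedBall_subset_closedBall (by norm_num) hu
  set r := R L s v u with hr
  set r' := R L s v' u with hr'
  have hrm : r ∈ ball (0 : E2) 1 := R_mem v hs hu3
  have hrm' : r' ∈ ball (0 : E2) 1 := R_mem v' hs hu3
  have h3 : L.τ (L.φ s v) w u = L.τ v w r := by
    obtain ⟨h4, h5⟩ := i1.tau_mem (cb3 (by norm_num) hrm)
    refine tau_unique (cb3 (by norm_num) h4) ?_
    rw [h5, hr, e_R v hs hu3]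
  have h3' : L.τ (L.φ s v') w' u = L.τ v' w' r' := by
    obtain ⟨h4, h5⟩ := i2.tau_mem (cb3 (by norm_num) hrm')
    refine tau_unique (cb3 (by norm_num) h4) ?_
    rw [h5, hr', e_R v' hs hu3]
  have h6 : ‖r - r'‖ ≤ C₁ * ε ^ α₁ := h1 v v' s hs ε hε.le hd u hu
  have hD0 : 0 ≤ D := (norm_nonneg _).trans (hD r' (ball_subset_closedBall hrm'))
  have h7 : ‖L.τ v' w' r - L.τ v' w' r'‖ ≤ D * ‖r - r'‖ := by
    refine lip_ball (r := 1) (fun z hz => ?_) hD (ball_subset_closedBall hrm)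
      (ball_subset_closedBall hrm')
    exact tau_diffAt e2 (i2.mem_dm (closedBall_subset_ball (by norm_num) hz))
  have h8 : ‖L.τ v w r - L.τ v' w' r‖ ≤ |C₂| * 2 ^ α₂ * ε ^ α₂ := by
    have h9 : ∀ {a b : X}, Inc L 1 a b → L.e a r ∈ L.e b '' closedBall 0 2 := fun h =>
      image_mono (fun z hz => ball_subset_closedBall (ball_subset_ball (by norm_num) hz))
        (h ⟨r, cb3 (by norm_num) hrm, rfl⟩)
    have h10 := h2 v w v' w' e1 e2 l1 l2 r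
      (ball_subset_closedBall (ball_subset_ball (by norm_num) hrm)) (h9 i1) (h9 i2)
    rw [norm_iter0_sub] at h10
    have h11 : dist v v' ≤ ε := by
      have := hd 0 ⟨le_rfl, by linarith⟩
      rwa [L.φ_zero, L.φ_zero] at this
    have h12 : (dist v v' + dist w w') ^ α₂ ≤ (2 * ε) ^ α₂ :=
      Real.rpow_le_rpow (by positivity) (by linarith) hα₂.le
    rw [Real.mul_rpow (by norm_num) hε.le] at h12
    calc _ ≤ C₂ * (dist v v' + dist w w') ^ α₂ := h10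
      _ ≤ |C₂| * (dist v v' + dist w w') ^ α₂ :=
        mul_le_mul_of_nonneg_right (le_abs_self _) (by positivity)
      _ ≤ |C₂| * (2 ^ α₂ * ε ^ α₂) := mul_le_mul_of_nonneg_left h12 (abs_nonneg _)
      _ = _ := by ring
  have h13 : ε ^ α₁ ≤ ε ^ min α₁ α₂ :=
    Real.rpow_le_rpow_of_exponent_ge hε hε1 (min_le_left _ _)
  have h14 : ε ^ α₂ ≤ ε ^ min α₁ α₂ :=
    Real.rpow_le_rpow_of_exponent_ge hε hε1 (min_le_right _ _)
  have h15 : 0 < ε ^ min α₁ α₂ := Real.rpow_pos_of_pos hε _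
  rw [h3, h3']
  set M := max C₁ (|C₂| * 2 ^ α₂)
  have hM1 : C₁ ≤ M := le_max_left _ _
  have hM2 : |C₂| * 2 ^ α₂ ≤ M := le_max_right _ _
  have hM0 : 0 ≤ M := hC₁.trans hM1
  calc ‖L.τ v w r - L.τ v' w' r'‖
      = ‖(L.τ v w r - L.τ v' w' r) + (L.τ v' w' r - L.τ v' w' r')‖ := by
        rw [sub_add_sub_cancel]
    _ ≤ ‖L.τ v w r - L.τ v' w' r‖ + ‖L.τ v' w' r - L.τ v' w' r'‖ := norm_add_le _ _
    _ ≤ |C₂| * 2 ^ α₂ * ε ^ α₂ + D * (C₁ * ε ^ α₁) :=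
        add_le_add h8 (h7.trans (mul_le_mul_of_nonneg_left h6 hD0))
    _ ≤ M * ε ^ min α₁ α₂ + D * (M * ε ^ min α₁ α₂) := by gcongr
    _ = M * (1 + D) * ε ^ min α₁ α₂ := by ring

variable {L}

theorem sh_cont (o : Orb L) (J : ℕ) : Continuous (sh o J) := by
  unfold sh
  have := L.lv_cont
  fun_prop

/-- the two charts: `β^m • e y_m u = β^{m'} • e w' (τ p w' u)`, `m = m' + J` -/
theorem chart_id {o : Orb L} {m' J : ℕ} {y w : X} (h : Inc L 1 (o.β ^ J • y) w) {u : E2}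
    (hu : u ∈ closedBall (0 : E2) 3) :
    o.β ^ (m' + J) • L.e y u = o.β ^ m' • L.e w (L.τ (o.β ^ J • y) w u) := by
  rw [(h.tau_mem hu).2, L.e_smul _ _ u hu, pow_add, mul_smul]

theorem nor_id {o : Orb L} (n : Nor L o) {J : ℕ} {y : X} (h : Inc L 1 (o.β ^ J • y) o.x) {u : E2}
    (hu : u ∈ closedBall (0 : E2) 3) :
    n.x (L.e y u) = (n.N.fn)^[J] (n.x (L.e o.x (L.τ (o.β ^ J • y) o.x u))) := by
  have h1 := h.tau_mem hu
  have h2 : L.e o.x (L.τ (o.β ^ J • y) o.x u) ≠ o.neg :=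
    L.e_ne o.x _ (cb3 (by norm_num) h1.1)
  rw [← H310.nor_iter n J h2, h1.2, L.e_smul _ _ u hu, inv_smul_smul]

theorem contDiff_iter {f : E2 → E2} (hf : ContDiff ℝ ∞ f) (n : ℕ) : ContDiff ℝ ∞ (f^[n]) := by
  induction n with
  | zero => exact contDiff_id
  | succ n ih => rw [Function.iterate_succ]; exact ih.comp hf

/-- a smooth map is Lipschitz on bounded sets -/
theorem lip_of_contDiff {f : E2 → E2} (hf : ContDiff ℝ ∞ f) (M : ℝ) : ∃ C : ℝ, 0 ≤ C ∧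
    ∀ u v : E2, ‖u‖ ≤ M → ‖v‖ ≤ M → ‖f u - f v‖ ≤ C * ‖u - v‖ := by
  have h1 : Continuous (fderiv ℝ f) := hf.continuous_fderiv (by simp)
  obtain ⟨C, hC⟩ := (isCompact_closedBall (0 : E2) M).exists_bound_of_continuousOn
    h1.continuousOn
  refine ⟨|C|, abs_nonneg _, fun u v hu hv => ?_⟩
  refine lip_ball (r := M) (fun z _ => (hf.differentiable (by simp)) z)
    (fun z hz => (hC z hz).trans (le_abs_self _)) ?_ ?_
  · rwa [mem_closedBall_zero_iff]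
  · rwa [mem_closedBall_zero_iff]

theorem frames_cpt (o : Orb L) {K : Set B} (hK : IsCompact K) (hKp : o.pos ∉ K) :
    IsCompact ((fun ζ => L.hol ζ o.x) '' K) ∧ (fun ζ => L.hol ζ o.x) '' K ⊆ Fs o := by
  have hne : ∀ ζ ∈ K, ζ ≠ o.pos := fun ζ hζ h => hKp (h ▸ hζ)
  refine ⟨hK.image_of_continuousOn ?_, ?_⟩
  · exact L.hol_cont.comp (f := fun ζ : B => (ζ, o.x)) (by fun_prop) fun ζ hζ => hne ζ hζ
  · rintro _ ⟨ζ, hζ, rfl⟩
    exact hol_mem_Fs o (hne ζ hζ)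

/-- the geometric part of `conv` -/
theorem geo_close (L : Leaf Γ X B) : ∃ α : ℝ, 0 < α ∧ ∀ (o : Orb L) (K : Set B), IsCompact K →
    o.pos ∉ K → ∀ Q : Set X, IsCompact Q → (∀ y ∈ Q, L.em y = o.neg) →
    ∃ J : ℕ, (∀ y ∈ Q, Inc L 1 (o.β ^ J • y) o.x) ∧ ∃ T : ℕ → ℝ,
      (∀ j : ℕ, ∀ y ∈ Q, ∀ u ∈ closedBall (0 : E2) 2,
        ‖iteratedFDeriv ℝ j (L.τ (o.β ^ J • y) o.x) u‖ ≤ T j) ∧
      ∃ A : ℝ, 0 ≤ A ∧ ∀ᶠ m' : ℕ in atTop, ∀ ζ ∈ K, ∀ y ∈ Q,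
        (o.β ^ (m' + J))⁻¹ • ζ ≠ L.ep y ∧
        L.em (o.β ^ J • L.hol ((o.β ^ (m' + J))⁻¹ • ζ) y) = L.em (ym o m' (L.hol ζ o.x)) ∧
        Inc L 1 (o.β ^ J • L.hol ((o.β ^ (m' + J))⁻¹ • ζ) y) (ym o m' (L.hol ζ o.x)) ∧
        (∀ j : ℕ, ∀ u ∈ closedBall (0 : E2) 2,
          ‖iteratedFDeriv ℝ j (L.τ (o.β ^ J • L.hol ((o.β ^ (m' + J))⁻¹ • ζ) y)
            (ym o m' (L.hol ζ o.x))) u‖ ≤ T j) ∧
        ∀ u ∈ closedBall (0 : E2) 2,
          ‖L.τ (o.β ^ J • L.hol ((o.β ^ (m' + J))⁻¹ • ζ) y) (ym o m' (L.hol ζ o.x)) u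
            - L.τ (o.β ^ J • y) o.x u‖ ≤ A * Real.exp (-(L.χ * α) * (m' * o.l)) := by
  obtain ⟨Cq, α, hCq, hα, hq⟩ := q_close L
  refine ⟨α, hα, fun o K hK hKp Q hQ hQx => ?_⟩
  have hχ := L.χ_pos
  have hol := o.ax.pos
  have ht1 := L.t1_pos
  obtain ⟨J, hJ⟩ := exists_J hQ hQx
  have hJ1 : ∀ y ∈ Q, Inc L 1 (o.β ^ J • y) o.x := fun y hy => by
    have h1 := (Inc_φ (vf o J y) (hJ y hy).1).comp (hJ y hy).2
    rwa [φ_vf] at h1
  obtain ⟨hWc, hWF⟩ := frames_cpt o hK hKp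
  obtain ⟨CK, hCK, hck⟩ := close_K o hWc hWF
  obtain ⟨CQ, hCQ⟩ := Ax.key o.ax hK hKp hQ hQx
  set P₀ : Set (X × X) := (fun y => (vf o J y, o.x)) '' Q with hP₀
  set P₁ : Set (X × X) := (fun y => (o.β ^ J • y, o.x)) '' Q with hP₁
  have hP₀c : IsCompact P₀ := hQ.image ((vf_cont J).prodMk continuous_const)
  have hP₁c : IsCompact P₁ := hQ.image ((continuous_const_smul _).prodMk continuous_const)
  have hlvo : IsOpen {q : X × X | |L.lv q.1 - L.lv q.2| < 3 * L.t1} := by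
    have := L.lv_cont
    exact isOpen_lt (by fun_prop) (by fun_prop)
  obtain ⟨δ₀, hδ₀, hi₀, hb₀⟩ := thick hP₀c (by
    rintro _ ⟨y, hy, rfl⟩
    exact (hJ y hy).2) hlvo (by
    rintro _ ⟨y, hy, rfl⟩
    change |L.lv (vf o J y) - L.lv o.x| < 3 * L.t1
    rw [lv_vf J (hQx y hy), add_sub_cancel_left, abs_of_nonneg (by linarith)]
    linarith)
  obtain ⟨δ₁, hδ₁, hi₁, hb₁⟩ := thick hP₁c (by
    rintro _ ⟨y, hy, rfl⟩
    exact hJ1 y hy) isOpen_univ (subset_univ _)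
  choose T hT using hb₁
  obtain ⟨D₁, hD₁⟩ := hb₀ 1
  obtain ⟨S, hS⟩ := hQ.exists_bound_of_continuousOn (sh_cont o J).continuousOn
  replace hS : ∀ y ∈ Q, sh o J y ≤ S := fun y hy => (le_abs_self _).trans (hS y hy)
  refine ⟨J, hJ1, T, fun j y hy u hu => hT j (o.β ^ J • y, o.x)
    (self_subset_cthickening _ ⟨y, hy, rfl⟩) ?_ u hu, ?_⟩
  · rw [L.em_smul, hQx y hy]
    exact Ax.pow_smul_em o.ax J
  set D : ℝ := |CQ| * Real.exp (L.χ * |S|) + CK + 1 with hD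
  have hD0 : 0 < D := by positivity
  set ε : ℕ → ℝ := fun m => D * Real.exp (-L.χ * (m * o.l)) with hε
  have hε0 : ∀ m, 0 < ε m := fun m => by positivity
  have hεt : Tendsto ε atTop (𝓝 0) := by
    have h := Ax.tendsto_exp_aux o.ax D
    simpa only [add_zero] using h
  have hm1 : ∀ᶠ m' : ℕ in atTop, S ≤ (m' : ℝ) * o.l :=
    (tendsto_natCast_atTop_atTop.atTop_mul_const hol).eventually_ge_atTop _
  have hCQ' : ∀ᶠ m' : ℕ in atTop, ∀ ζ ∈ K, ∀ y ∈ Q, ∀ t ≥ -((m' + J : ℕ) * o.l),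
      (o.β ^ (m' + J))⁻¹ • ζ ≠ L.ep y ∧
      dist (L.φ t y) (L.φ t (L.hol ((o.β ^ (m' + J))⁻¹ • ζ) y))
        ≤ CQ * Real.exp (-L.χ * ((m' + J : ℕ) * o.l + t)) := by
    rw [← map_add_atTop_eq_nat J, eventually_map] at hCQ
    exact hCQ
  refine ⟨|Cq * (1 + D₁) * D ^ α|, abs_nonneg _, ?_⟩
  filter_upwards [hm1, hCQ', hεt.eventually (gt_mem_nhds one_pos),
    hεt.eventually (gt_mem_nhds hδ₀), hεt.eventually (gt_mem_nhds hδ₁)]
    with m' hSm hk hε1 hεδ₀ hεδ₁ ζ hζ y hy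
  have hne : ζ ≠ o.pos := fun h => hKp (h ▸ hζ)
  set w := L.hol ζ o.x with hw
  have hwF : w ∈ Fs o := hol_mem_Fs o hne
  have hwW : w ∈ (fun ζ => L.hol ζ o.x) '' K := ⟨ζ, hζ, rfl⟩
  have hem : L.em w = ζ := L.hol_em _ _ hne
  set w' := ym o m' w with hw'
  set y' := L.hol ((o.β ^ (m' + J))⁻¹ • ζ) y with hy'
  set p := o.β ^ J • y' with hp
  set s := sh o J y with hs
  set v := L.φ (-s) p with hv
  have hm0 : (0 : ℝ) ≤ m' * o.l := by positivity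
  have hmJ : ((m' + J : ℕ) : ℝ) * o.l = m' * o.l + J * o.l := by push_cast; ring
  have hJ0 : (0 : ℝ) ≤ J * o.l := by positivity
  have hep : (o.β ^ (m' + J))⁻¹ • ζ ≠ L.ep y := (hk ζ hζ y hy 0 (by rw [hmJ]; linarith)).1
  have hemy : L.em y' = (o.β ^ (m' + J))⁻¹ • ζ := L.hol_em _ _ hep
  have hemp : L.em p = (o.β ^ m')⁻¹ • ζ := by
    rw [hp, L.em_smul, hemy, pow_add, mul_inv_rev, mul_smul, smul_inv_smul]
  have hemw : L.em w' = (o.β ^ m')⁻¹ • ζ := by rw [hw', em_ym, hem]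
  have hs1 : L.t1 ≤ s := (hJ y hy).1
  have hsS : s ≤ S := hS y hy
  -- distances
  have hexp : ∀ t : ℝ, -S ≤ t → CQ * Real.exp (-L.χ * ((m' + J : ℕ) * o.l + t)) ≤ ε m' := by
    intro t ht
    have h1 : Real.exp (-L.χ * ((m' + J : ℕ) * o.l + t)) ≤
        Real.exp (L.χ * |S|) * Real.exp (-L.χ * (m' * o.l)) := by
      rw [← Real.exp_add, Real.exp_le_exp, hmJ]
      have h2 : -|S| ≤ t := by linarith [le_abs_self S]
      nlinarith
    calc CQ * Real.exp (-L.χ * ((m' + J : ℕ) * o.l + t))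
        ≤ |CQ| * (Real.exp (L.χ * |S|) * Real.exp (-L.χ * (m' * o.l))) :=
          mul_le_mul (le_abs_self _) h1 (Real.exp_nonneg _) (abs_nonneg _)
      _ = |CQ| * Real.exp (L.χ * |S|) * Real.exp (-L.χ * (m' * o.l)) := by ring
      _ ≤ D * Real.exp (-L.χ * (m' * o.l)) := by
          refine mul_le_mul_of_nonneg_right ?_ (Real.exp_nonneg _)
          rw [hD]
          linarith
  have hd1 : ∀ t ∈ Icc 0 s, dist (L.φ t v) (L.φ t (vf o J y)) ≤ ε m' := by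
    intro t ht
    have h1 : L.φ t v = o.β ^ J • L.φ (t - s) y' := by
      rw [hv, ← L.φ_add, hp, L.φ_smul, sub_eq_add_neg]
    have h2 : L.φ t (vf o J y) = o.β ^ J • L.φ (t - s) y := by
      rw [vf, ← L.φ_add, L.φ_smul, sub_eq_add_neg]
    rw [h1, h2, dist_smul, dist_comm]
    have ht0 : -S ≤ t - s := by linarith [ht.1]
    exact (hk ζ hζ y hy (t - s) (by rw [hmJ]; linarith)).2.trans (hexp _ ht0)
  have hd2 : dist w' o.x ≤ ε m' := by
    have h1 := hck m' w hwW 0 (by linarith)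
    rw [L.φ_zero, L.φ_zero, add_zero] at h1
    refine h1.trans (mul_le_mul_of_nonneg_right ?_ (Real.exp_nonneg _))
    rw [hD]
    have : 0 ≤ |CQ| * Real.exp (L.χ * |S|) := by positivity
    linarith
  have hd3 : dist p (o.β ^ J • y) ≤ ε m' := by
    rw [hp, dist_smul, dist_comm]
    have h1 := (hk ζ hζ y hy 0 (by rw [hmJ]; linarith)).2
    rw [L.φ_zero, L.φ_zero] at h1
    refine h1.trans (hexp 0 ?_)
    linarith
  have hdv : dist v (vf o J y) ≤ ε m' := by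
    have := hd1 0 ⟨le_rfl, by linarith⟩
    rwa [L.φ_zero, L.φ_zero] at this
  have hq0 : (v, w') ∈ cthickening δ₀ P₀ :=
    mem_cthickening_of_dist_le (v, w') (vf o J y, o.x) δ₀ P₀ ⟨y, hy, rfl⟩
      (max_le (hdv.trans hεδ₀.le) (hd2.trans hεδ₀.le))
  have hq1 : (p, w') ∈ cthickening δ₁ P₁ :=
    mem_cthickening_of_dist_le (p, w') (o.β ^ J • y, o.x) δ₁ P₁ ⟨y, hy, rfl⟩
      (max_le (hd3.trans hεδ₁.le) (hd2.trans hεδ₁.le))
  have hq2 : (vf o J y, o.x) ∈ cthickening δ₀ P₀ := self_subset_cthickening _ ⟨y, hy, rfl⟩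
  have hemv : L.em v = L.em w' := by rw [hv, L.em_φ, hemp, hemw]
  have hemv' : L.em (vf o J y) = L.em o.x := em_vf J (hQx y hy)
  refine ⟨hep, hemp.trans hemw.symm, (hi₁ _ hq1).1, fun j u hu =>
    hT j (p, w') hq1 (hemp.trans hemw.symm) u hu, fun u hu => ?_⟩
  have h1 := hq v w' (vf o J y) o.x s hs1 hemv hemv' (hi₀ _ hq0).2.le (hi₀ _ hq2).2.le
    (hi₀ _ hq0).1 (hi₀ _ hq2).1 D₁ (fun r hr => by
      have h2 := hD₁ _ hq2 hemv' r (closedBall_subset_closedBall (by norm_num) hr)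
      rwa [norm_iteratedFDeriv_one] at h2) (ε m') (hε0 m') hε1.le hd1 hd2 u hu
  rw [φ_vf, hv, φ_sub_cancel] at h1
  refine h1.trans ?_
  have h3 : (ε m') ^ α = D ^ α * Real.exp (-(L.χ * α) * (m' * o.l)) := by
    rw [hε, Real.mul_rpow hD0.le (Real.exp_nonneg _), ← Real.exp_mul]
    congr 2
    ring
  rw [h3, ← mul_assoc]
  exact mul_le_mul_of_nonneg_right (le_abs_self _) (Real.exp_nonneg _)

/-- **the field `conv`** -/
theorem conv_of_germ (L : Leaf Γ X B) {c : ℝ} (hc : 0 < c) : ∃ c' : ℝ, 0 < c' ∧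
    ∀ (o : Orb L), L.t1 ≤ o.l → ∀ (n : Nor L o) (G : H310.Germ o n.x n.N.fn c),
    ∀ K : Set B, IsCompact K → o.pos ∉ K → ∀ Q : Set X, IsCompact Q →
    (∀ y ∈ Q, L.em y = o.neg) → ∀ k : ℕ, ∃ C, ∀ᶠ m : ℕ in atTop, ∀ ζ ∈ K, ∀ y ∈ Q,
    (o.β ^ m)⁻¹ • ζ ≠ L.ep y ∧
    (∀ u ∈ closedBall (0 : E2) 3, o.β ^ m • L.e (L.hol ((o.β ^ m)⁻¹ • ζ) y) u
      ∈ L.e (L.hol ζ o.x) '' ball 0 1) ∧
    ContDiffOn ℝ ∞ (fun u => n.N.fn^[m]
      (G.F ζ (o.β ^ m • L.e (L.hol ((o.β ^ m)⁻¹ • ζ) y) u))) (ball 0 3) ∧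
    ∀ u ∈ closedBall (0 : E2) 1,
      ‖iteratedFDeriv ℝ k
          (fun u => n.N.fn^[m] (G.F ζ (o.β ^ m • L.e (L.hol ((o.β ^ m)⁻¹ • ζ) y) u))) u
        - iteratedFDeriv ℝ k (fun u => n.x (L.e y u)) u‖ ≤ C * Real.exp (-c' * o.l * m) := by
  obtain ⟨α, hα, hgeo⟩ := geo_close L
  have hχ := L.χ_pos
  set c₁ : ℝ := min c (L.χ * α) with hc₁
  have hc₁0 : 0 < c₁ := lt_min hc (by positivity)
  refine ⟨c₁ / 2, by positivity, fun o hl n G K hK hKp Q hQ hQx k => ?_⟩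
  have hol := o.ax.pos
  obtain ⟨hWc, hWF⟩ := frames_cpt o hK hKp
  obtain ⟨J, hJ, T, hT, A, hA0, hA⟩ := hgeo o K hK hKp Q hQ hQx
  set h : E2 → E2 := fun q => n.x (L.e o.x q) with hh
  have hhc : ContDiffOn ℝ ∞ h (ball 0 3) := n.smooth o.x rfl
  have hNc : ContDiff ℝ ∞ (n.N.fn^[J]) := contDiff_iter (H790.NF.contDiff_fn _) J
  -- bounds of `h`
  have hhb : ∀ j : ℕ, ∃ C : ℝ, ∀ u ∈ ball (0 : E2) (3 / 2), ‖iteratedFDeriv ℝ j h u‖ ≤ C := by
    intro j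
    obtain ⟨C, hC⟩ := (isCompact_closedBall (0 : E2) 2).exists_bound_of_continuousOn
      ((cont_iter hhc j).mono (closedBall_subset_ball (by norm_num)))
    exact ⟨C, fun u hu => hC u (ball_subset_closedBall (ball_subset_ball (by norm_num) hu))⟩
  choose Hb hHb using hhb
  choose Cg hCg0 hCg using G.itC _ hWc hWF
  -- the family of all `(m', ζ, y)`
  set good : ℕ × B × X → Prop := fun i => i.2.1 ∈ K ∧ i.2.2 ∈ Q ∧
    L.em (o.β ^ J • L.hol ((o.β ^ (i.1 + J))⁻¹ • i.2.1) i.2.2) =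
      L.em (ym o i.1 (L.hol i.2.1 o.x)) ∧
    Inc L 1 (o.β ^ J • L.hol ((o.β ^ (i.1 + J))⁻¹ • i.2.1) i.2.2) (ym o i.1 (L.hol i.2.1 o.x)) ∧
    (∀ j : ℕ, ∀ u ∈ closedBall (0 : E2) 2,
      ‖iteratedFDeriv ℝ j (L.τ (o.β ^ J • L.hol ((o.β ^ (i.1 + J))⁻¹ • i.2.1) i.2.2)
        (ym o i.1 (L.hol i.2.1 o.x))) u‖ ≤ T j) with hgood
  set ι : Type := {i : ℕ × B × X // good i} with hι
  set Zf : ι → E2 → E2 := fun i q => n.N.fn^[i.1.1] (G.F (L.em (L.hol i.1.2.1 o.x))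
    (o.β ^ i.1.1 • L.e (ym o i.1.1 (L.hol i.1.2.1 o.x)) q)) with hZf
  set Tf : ι → E2 → E2 := fun i => L.τ (o.β ^ J • L.hol ((o.β ^ (i.1.1 + J))⁻¹ • i.1.2.1) i.1.2.2)
    (ym o i.1.1 (L.hol i.1.2.1 o.x)) with hTf
  have hwW : ∀ i : ι, L.hol i.1.2.1 o.x ∈ (fun ζ => L.hol ζ o.x) '' K := fun i =>
    ⟨i.1.2.1, i.2.1, rfl⟩
  have hb2 : ball (0 : E2) (3 / 2) ⊆ closedBall 0 2 := fun u hu =>
    ball_subset_closedBall (ball_subset_ball (by norm_num) hu)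
  have hZFB : FB (3 / 2) Zf := by
    refine ⟨fun i => G.itS _ _ (hWF (hwW i)), fun j => ⟨Hb j + Cg j, fun i u hu => ?_⟩⟩
    have h1 := hCg j i.1.1 _ (hwW i) u hu
    have h2 := hHb j u hu
    have h3 : Real.exp (-c * o.l * i.1.1) ≤ 1 := by
      rw [Real.exp_le_one_iff]
      have : 0 ≤ c * o.l * i.1.1 := by positivity
      linarith
    have h4 : Cg j * Real.exp (-c * o.l * i.1.1) ≤ Cg j :=
      mul_le_of_le_one_right (hCg0 j) h3
    have h5 := norm_le_norm_add_norm_sub' (iteratedFDeriv ℝ j (Zf i) u) (iteratedFDeriv ℝ j h u)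
    linarith
  have hTFB : FB (3 / 2) Tf := by
    refine ⟨fun i => (i.2.2.2.2.1.smooth i.2.2.2.1).mono (ball_subset_ball (by norm_num)),
      fun j => ⟨T j, fun i u hu => i.2.2.2.2.2 j u (hb2 hu)⟩⟩
  have hTm : ∀ i : ι, ∀ u ∈ closedBall (0 : E2) 3, Tf i u ∈ ball (0 : E2) 1 := fun i u hu =>
    (i.2.2.2.2.1.tau_mem hu).1
  have hWFB : FB (3 / 2) (fun i u => n.N.fn^[J] (Zf i (Tf i u))) :=
    (hZFB.comp hTFB fun i u hu => ball_subset_ball (by norm_num)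
      (hTm i u (cb3 (by norm_num) hu))).post (by norm_num) hNc
  -- the limits
  set Lf : Q → E2 → E2 := fun y => L.τ (o.β ^ J • y.1) o.x with hLf
  have hLm : ∀ y : Q, ∀ u ∈ closedBall (0 : E2) 3, Lf y u ∈ ball (0 : E2) 1 := fun y u hu =>
    ((hJ y y.2).tau_mem hu).1
  have hLem : ∀ y : Q, L.em (o.β ^ J • y.1) = L.em o.x := fun y => by
    rw [L.em_smul, hQx y y.2]
    exact Ax.pow_smul_em o.ax J
  have hLFB : FB (3 / 2) Lf := by
    refine ⟨fun y => ((hJ y y.2).smooth (hLem y)).mono (ball_subset_ball (by norm_num)),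
      fun j => ⟨T j, fun y u hu => hT j y y.2 u (hb2 hu)⟩⟩
  have hhFB : FB (3 / 2) (fun _ : Q => h) :=
    ⟨fun _ => hhc.mono (ball_subset_ball (by norm_num)), fun j => ⟨Hb j, fun _ => hHb j⟩⟩
  have hxFB : FB (3 / 2) (fun y u => n.N.fn^[J] (h (Lf y u))) :=
    (hhFB.comp hLFB fun y u hu => ball_subset_ball (by norm_num)
      (hLm y u (cb3 (by norm_num) hu))).post (by norm_num) hNc
  obtain ⟨M₁, hM₁⟩ := hWFB.2 (2 * k + 1)
  obtain ⟨M₂, hM₂⟩ := hxFB.2 (2 * k + 1)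
  obtain ⟨Ci, hCi0, hCi⟩ := interp_rate k (max M₁ M₂)
  obtain ⟨Z₀, hZ₀⟩ := hZFB.2 0
  obtain ⟨LJ, hLJ0, hLJ⟩ := lip_of_contDiff hNc (max Z₀ (Hb 0))
  set A₂ : ℝ := LJ * (Cg 0 + |Hb 1| * A) + 1 with hA₂
  have hA₂0 : 0 < A₂ := by
    have := hCg0 0
    positivity
  have hη : Tendsto (fun m' : ℕ => A₂ * Real.exp (-c₁ * o.l * m')) atTop (𝓝 0) := by
    have h1 : Tendsto (fun m : ℕ => c₁ * o.l * (m : ℝ)) atTop atTop :=
      tendsto_natCast_atTop_atTop.const_mul_atTop (mul_pos hc₁0 hol)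
    have h2 := (Real.tendsto_exp_neg_atTop_nhds_zero.comp h1).const_mul A₂
    rw [mul_zero] at h2
    refine h2.congr fun m => ?_
    simp only [Function.comp_apply]
    ring_nf
  refine ⟨Ci * A₂ ^ (1 / 2 : ℝ) * Real.exp (c₁ / 2 * o.l * J), ?_⟩
  rw [← map_add_atTop_eq_nat J, eventually_map]
  filter_upwards [hA, eventually_ge_atTop 1, hη.eventually (gt_mem_nhds one_pos)]
    with m' hm hm1 hη1 ζ hζ y hy
  obtain ⟨g1, g2, g3, g4, g5⟩ := hm ζ hζ y hy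
  have hne : ζ ≠ o.pos := fun h => hKp (h ▸ hζ)
  have hem : L.em (L.hol ζ o.x) = ζ := L.hol_em _ _ hne
  set i : ι := ⟨(m', ζ, y), hζ, hy, g2, g3, g4⟩ with hi
  set q : Q := ⟨y, hy⟩ with hq
  have hid : ∀ u ∈ closedBall (0 : E2) 3, n.N.fn^[m' + J]
      (G.F ζ (o.β ^ (m' + J) • L.e (L.hol ((o.β ^ (m' + J))⁻¹ • ζ) y) u)) =
      n.N.fn^[J] (Zf i (Tf i u)) := fun u hu => by
    rw [chart_id g3 hu]
    have h1 : n.N.fn^[m' + J] = n.N.fn^[J + m'] := by rw [add_comm]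
    rw [h1, Function.iterate_add_apply]
    change _ = n.N.fn^[J] (n.N.fn^[m'] (G.F (L.em (L.hol ζ o.x)) _))
    rw [hem]
  have hidx : ∀ u ∈ closedBall (0 : E2) 3, n.x (L.e y u) = n.N.fn^[J] (h (Lf q u)) :=
    fun u hu => nor_id n (hJ y hy) hu
  have hcd : ContDiffOn ℝ ∞ (fun u => n.N.fn^[m' + J]
      (G.F ζ (o.β ^ (m' + J) • L.e (L.hol ((o.β ^ (m' + J))⁻¹ • ζ) y) u))) (ball 0 3) := by
    have h1 : ContDiffOn ℝ ∞ (fun u => n.N.fn^[J] (Zf i (Tf i u))) (ball 0 3) := by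
      refine hNc.comp_contDiffOn ((hZFB.1 i).comp (g3.smooth g2) fun u hu => ?_)
      exact ball_subset_ball (by norm_num) (hTm i u (ball_subset_closedBall hu))
    exact h1.congr fun u hu => hid u (ball_subset_closedBall hu)
  refine ⟨g1, fun u hu => ?_, hcd, fun u hu => ?_⟩
  · rw [chart_id g3 hu]
    obtain ⟨m'', rfl⟩ : ∃ m'', m' = m'' + 1 := ⟨m' - 1, by omega⟩
    obtain ⟨v, hv, he⟩ := H310.pow_e_ym hl m'' (L.hol ζ o.x) (cb3 (by norm_num) (hTm i u hu))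
    exact ⟨v, hv, he.symm⟩
  · have hcx : ContDiffOn ℝ ∞ (fun u => n.x (L.e y u)) (ball 0 (3 / 2)) :=
      (n.smooth y (hQx y hy)).mono (ball_subset_ball (by norm_num))
    have hη0 : 0 < A₂ * Real.exp (-c₁ * o.l * m') := by positivity
    have hC0 : ∀ u ∈ ball (0 : E2) (3 / 2), ‖n.N.fn^[m' + J]
        (G.F ζ (o.β ^ (m' + J) • L.e (L.hol ((o.β ^ (m' + J))⁻¹ • ζ) y) u)) - n.x (L.e y u)‖ ≤
        A₂ * Real.exp (-c₁ * o.l * m') := by
      intro u hu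
      have hu3 : u ∈ closedBall (0 : E2) 3 := cb3 (by norm_num) hu
      rw [hid u hu3, hidx u hu3]
      have a1 : Tf i u ∈ ball (0 : E2) 1 := hTm i u hu3
      have a2 : Lf q u ∈ ball (0 : E2) 1 := hLm q u hu3
      have b1 : Tf i u ∈ ball (0 : E2) (3 / 2) := ball_subset_ball (by norm_num) a1
      have b2 : Lf q u ∈ ball (0 : E2) (3 / 2) := ball_subset_ball (by norm_num) a2
      have e1 : ‖Zf i (Tf i u)‖ ≤ max Z₀ (Hb 0) := by
        have := hZ₀ i _ b1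
        rw [norm_iteratedFDeriv_zero] at this
        exact this.trans (le_max_left _ _)
      have e2 : ‖h (Lf q u)‖ ≤ max Z₀ (Hb 0) := by
        have := hHb 0 _ b2
        rw [norm_iteratedFDeriv_zero] at this
        exact this.trans (le_max_right _ _)
      have e3 : ‖Zf i (Tf i u) - h (Tf i u)‖ ≤ Cg 0 * Real.exp (-c₁ * o.l * m') := by
        have h1 := hCg 0 m' _ (hwW i) _ b1
        rw [norm_iter0_sub] at h1
        refine h1.trans (mul_le_mul_of_nonneg_left (Real.exp_le_exp.2 ?_) (hCg0 0))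
        have h2 : c₁ ≤ c := min_le_left _ _
        have h3 : 0 ≤ o.l * m' := by positivity
        nlinarith
      have e4 : ‖h (Tf i u) - h (Lf q u)‖ ≤ |Hb 1| * ‖Tf i u - Lf q u‖ := by
        refine lip_ball (r := 1) (fun z hz => ?_) (fun z hz => ?_) (ball_subset_closedBall a1)
          (ball_subset_closedBall a2)
        · exact (hhc.contDiffAt (isOpen_ball.mem_nhds
            (closedBall_subset_ball (by norm_num) hz))).differentiableAt (by simp)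
        · have := hHb 1 z (closedBall_subset_ball (by norm_num) hz)
          rw [norm_iteratedFDeriv_one] at this
          exact this.trans (le_abs_self _)
      have e5 : ‖Tf i u - Lf q u‖ ≤ A * Real.exp (-c₁ * o.l * m') := by
        refine (g5 u (hb2 hu)).trans (mul_le_mul_of_nonneg_left (Real.exp_le_exp.2 ?_) hA0)
        have h2 : c₁ ≤ L.χ * α := min_le_right _ _
        have h3 : 0 ≤ o.l * m' := by positivity
        nlinarith
      calc _ ≤ LJ * ‖Zf i (Tf i u) - h (Lf q u)‖ := hLJ _ _ e1 e2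
        _ = LJ * ‖(Zf i (Tf i u) - h (Tf i u)) + (h (Tf i u) - h (Lf q u))‖ := by
          rw [sub_add_sub_cancel]
        _ ≤ LJ * (Cg 0 * Real.exp (-c₁ * o.l * m') +
            |Hb 1| * (A * Real.exp (-c₁ * o.l * m'))) := by
          refine mul_le_mul_of_nonneg_left ((norm_add_le _ _).trans (add_le_add e3
            (e4.trans (mul_le_mul_of_nonneg_left e5 (abs_nonneg _))))) hLJ0
        _ ≤ A₂ * Real.exp (-c₁ * o.l * m') := by
          rw [hA₂]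
          have := Real.exp_pos (-c₁ * o.l * m')
          nlinarith
    have hbW : ∀ u ∈ ball (0 : E2) (3 / 2), ‖iteratedFDeriv ℝ (2 * k + 1) (fun u => n.N.fn^[m' + J]
        (G.F ζ (o.β ^ (m' + J) • L.e (L.hol ((o.β ^ (m' + J))⁻¹ • ζ) y) u))) u‖ ≤ max M₁ M₂ := by
      intro u hu
      have h1 : (fun u => n.N.fn^[m' + J]
          (G.F ζ (o.β ^ (m' + J) • L.e (L.hol ((o.β ^ (m' + J))⁻¹ • ζ) y) u))) =ᶠ[𝓝 u]
          (fun u => n.N.fn^[J] (Zf i (Tf i u))) := by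
        filter_upwards [isOpen_ball.mem_nhds hu] with v hv
        exact hid v (cb3 (by norm_num) hv)
      rw [(h1.iteratedFDeriv ℝ (2 * k + 1)).eq_of_nhds]
      exact (hM₁ i u hu).trans (le_max_left _ _)
    have hbx : ∀ u ∈ ball (0 : E2) (3 / 2),
        ‖iteratedFDeriv ℝ (2 * k + 1) (fun u => n.x (L.e y u)) u‖ ≤ max M₁ M₂ := by
      intro u hu
      have h1 : (fun u => n.x (L.e y u)) =ᶠ[𝓝 u] (fun u => n.N.fn^[J] (h (Lf q u))) := by
        filter_upwards [isOpen_ball.mem_nhds hu] with v hv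
        exact hidx v (cb3 (by norm_num) hv)
      rw [(h1.iteratedFDeriv ℝ (2 * k + 1)).eq_of_nhds]
      exact (hM₂ q u hu).trans (le_max_right _ _)
    refine (hCi _ _ (hcd.mono (ball_subset_ball (by norm_num))) hcx hbW hbx _ hη0 hη1.le hC0
      u hu).trans (le_of_eq ?_)
    have h9 : Real.exp (-c₁ * o.l * m' * (1 / 2)) =
        Real.exp (c₁ / 2 * o.l * J) * Real.exp (-(c₁ / 2) * o.l * (m' + J : ℕ)) := by
      rw [← Real.exp_add]
      congr 1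
      push_cast
      ring
    rw [Real.mul_rpow hA₂0.le (Real.exp_nonneg _), ← Real.exp_mul, h9]
    ring

end Vale.Agent.P207.N3.H147
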