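import Vale.Agent.P207.N3.H147.Chart
import Vale.Agent.P207.N3.H545.Interp

/-!
# P207, line N3 (P4): Hölder dependence of the long transition maps `R t x = τ (φ t x) x`

If `dist (φ s x) (φ s x') ≤ δ` for `0 ≤ s ≤ t` then `|D^k (R t x - R t x')| ≤ C_k δ^α` on the unit
disc, `α` independent of `k` and `t ≥ t1`.
-/

open Set Filter Topology Metric MeasureTheory
open scoped ContDiff

noncomputable section

namespace Vale.Agent.P207.N3.H147

variable {Γ X B : Type} [Group Γ] [MetricSpace X] [ProperSpace X] [MulAction Γ X]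
  [IsIsometricSMul Γ X] [TopologicalSpace B] [CompactSpace B] [T2Space B] [MulAction Γ B]
  [ContinuousConstSMul Γ B] (L : Leaf Γ X B)

theorem norm_iter0_sub {E F : Type*} [NormedAddCommGroup E] [NormedSpace ℝ E]
    [NormedAddCommGroup F] [NormedSpace ℝ F] (f g : E → F) (u v : E) :
    ‖iteratedFDeriv ℝ 0 f u - iteratedFDeriv ℝ 0 g v‖ = ‖f u - g v‖ := by
  rw [iteratedFDeriv_zero_eq_comp, iteratedFDeriv_zero_eq_comp]
  simp only [Function.comp_apply]
  rw [← map_sub, LinearIsometryEquiv.norm_map]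

/-- one step -/
theorem R_step : ∃ C α : ℝ, 0 ≤ C ∧ 0 < α ∧ ∀ x x' : X, ∀ s, L.t1 ≤ s → s ≤ 2 * L.t1 → ∀ δ ≥ 0,
    dist x x' ≤ δ → dist (L.φ s x) (L.φ s x') ≤ δ → ∀ u ∈ closedBall (0 : E2) 2,
    ‖R L s x u - R L s x' u‖ ≤ C * δ ^ α := by
  obtain ⟨C, α, hα, hC⟩ := L.holder 0 (2 * L.t1)
  refine ⟨max C 0 * 2 ^ α, α, by positivity, hα, fun x x' s hs1 hs2 δ hδ h0 h1 u hu => ?_⟩
  have ht := L.t1_pos
  have hu3 : u ∈ closedBall (0 : E2) 3 := closedBall_subset_closedBall (by norm_num) hu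
  have himg : ∀ y : X, L.e (L.φ s y) u ∈ L.e y '' closedBall 0 2 := fun y =>
    image_mono (fun v hv => ball_subset_closedBall (ball_subset_ball (by norm_num) hv))
      (L.engulf y s hs1 ⟨u, hu3, rfl⟩)
  have hlv : ∀ y : X, |L.lv (L.φ s y) - L.lv y| ≤ 2 * L.t1 := fun y => by
    rw [L.lv_φ, add_sub_cancel_left, abs_of_nonneg (by linarith)]
    exact hs2
  have h2 := hC (L.φ s x) x (L.φ s x') x' (L.em_φ _ _) (L.em_φ _ _) (hlv x) (hlv x') u hu
    (himg x) (himg x')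
  rw [norm_iter0_sub] at h2
  refine h2.trans ?_
  have h3 : (dist (L.φ s x) (L.φ s x') + dist x x') ^ α ≤ (2 * δ) ^ α :=
    Real.rpow_le_rpow (by positivity) (by linarith) hα.le
  rw [Real.mul_rpow (by norm_num) hδ] at h3
  calc C * (dist (L.φ s x) (L.φ s x') + dist x x') ^ α
      ≤ max C 0 * (dist (L.φ s x) (L.φ s x') + dist x x') ^ α :=
        mul_le_mul_of_nonneg_right (le_max_left _ _) (by positivity)
    _ ≤ max C 0 * (2 ^ α * δ ^ α) := mul_le_mul_of_nonneg_left h3 (le_max_right _ _)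
    _ = max C 0 * 2 ^ α * δ ^ α := by ring

/-- `C⁰` estimate, all times -/
theorem R_holder0 : ∃ C α : ℝ, 0 ≤ C ∧ 0 < α ∧ ∀ x x' : X, ∀ t, L.t1 ≤ t → ∀ δ ≥ 0,
    (∀ s ∈ Icc 0 t, dist (L.φ s x) (L.φ s x') ≤ δ) → ∀ u ∈ closedBall (0 : E2) 2,
    ‖R L t x u - R L t x' u‖ ≤ C * δ ^ α := by
  obtain ⟨C, α, hC0, hα, hC⟩ := R_step L
  obtain ⟨D, hD1, hD⟩ := R_lip L
  have hD0 : 0 < D := by linarith
  have ht1 := L.t1_pos
  have hχ := L.χ_pos
  set q : ℝ := Real.exp (-L.χ * L.t1) with hq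
  have hq0 : 0 < q := Real.exp_pos _
  have hq1 : q < 1 := by
    rw [hq, Real.exp_lt_one_iff]
    nlinarith
  -- induction over the number of steps
  have key : ∀ s, L.t1 ≤ s → s ≤ 2 * L.t1 → ∀ δ ≥ 0, ∀ n : ℕ, ∀ x x' : X,
      (∀ r ∈ Icc 0 ((n + 1 : ℕ) * s), dist (L.φ r x) (L.φ r x') ≤ δ) →
      ∀ u ∈ closedBall (0 : E2) 2,
      ‖R L ((n + 1 : ℕ) * s) x u - R L ((n + 1 : ℕ) * s) x' u‖
        ≤ (C * δ ^ α) * (1 + D * ∑ j ∈ Finset.range n, q ^ (j + 1)) := by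
    intro s hs1 hs2 δ hδ n
    have hs0 : 0 < s := ht1.trans_le hs1
    induction n with
    | zero =>
      intro x x' hd u hu
      simp only [Nat.cast_one, one_mul, zero_add, Finset.range_zero, Finset.sum_empty, mul_zero,
        add_zero, mul_one] at hd ⊢
      refine hC x x' s hs1 hs2 δ hδ ?_ (hd s ⟨hs0.le, le_rfl⟩) u hu
      have := hd 0 ⟨le_rfl, hs0.le⟩
      rwa [L.φ_zero, L.φ_zero] at this
    | succ n ih =>
      intro x x' hd u hu
      set T : ℝ := (n + 1 : ℕ) * s with hT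
      have hcast : ((n + 1 + 1 : ℕ) : ℝ) * s = s + T := by
        rw [hT]
        push_cast
        ring
      have hTs : s ≤ T := by
        rw [hT]
        push_cast
        nlinarith [(Nat.cast_nonneg n : (0 : ℝ) ≤ n)]
      have hT1 : L.t1 ≤ T := hs1.trans hTs
      rw [hcast] at hd ⊢
      have hu3 : u ∈ closedBall (0 : E2) 3 := closedBall_subset_closedBall (by norm_num) hu
      rw [R_comp x hs1 hT1 hu3, R_comp x' hs1 hT1 hu3]
      have hv := R_mem (L.φ T x) hs1 hu3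
      have hv' := R_mem (L.φ T x') hs1 hu3
      set v := R L s (L.φ T x) u
      set v' := R L s (L.φ T x') u
      have h1 : ‖v - v'‖ ≤ C * δ ^ α := by
        refine hC (L.φ T x) (L.φ T x') s hs1 hs2 δ hδ (hd T ⟨by linarith, by linarith⟩) ?_ u hu
        rw [← L.φ_add, ← L.φ_add]
        exact hd (s + T) ⟨by linarith, le_rfl⟩
      have h2 : ‖R L T x v - R L T x v'‖ ≤ D * Real.exp (-L.χ * T) * ‖v - v'‖ :=
        (hD x T hT1).2 v (ball_subset_ball (by norm_num) hv) v' (ball_subset_ball (by norm_num) hv')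
      have h3 : ‖R L T x v' - R L T x' v'‖
          ≤ (C * δ ^ α) * (1 + D * ∑ j ∈ Finset.range n, q ^ (j + 1)) :=
        ih x x' (fun r hr => hd r ⟨hr.1, hr.2.trans (by linarith)⟩) v'
          (ball_subset_closedBall (ball_subset_ball (by norm_num) hv'))
      have h4 : Real.exp (-L.χ * T) ≤ q ^ (n + 1) := by
        rw [hq, ← Real.exp_nat_mul]
        refine Real.exp_le_exp.2 ?_
        have : ((n + 1 : ℕ) : ℝ) * L.t1 ≤ T := by
          rw [hT]
          exact mul_le_mul_of_nonneg_left hs1 (Nat.cast_nonneg _)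
        nlinarith
      have hε : 0 ≤ C * δ ^ α := by positivity
      calc ‖R L T x v - R L T x' v'‖
          ≤ ‖R L T x v - R L T x v'‖ + ‖R L T x v' - R L T x' v'‖ := norm_sub_le_norm_sub_add_norm_sub _ _ _
        _ ≤ D * q ^ (n + 1) * (C * δ ^ α)
            + (C * δ ^ α) * (1 + D * ∑ j ∈ Finset.range n, q ^ (j + 1)) := by
            refine add_le_add (h2.trans ?_) h3
            exact mul_le_mul (mul_le_mul_of_nonneg_left h4 hD0.le) h1 (norm_nonneg _)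
              (mul_nonneg hD0.le (pow_nonneg hq0.le _))
        _ = (C * δ ^ α) * (1 + D * ∑ j ∈ Finset.range (n + 1), q ^ (j + 1)) := by
            rw [Finset.sum_range_succ]
            ring
  refine ⟨C * (1 + D * (1 - q)⁻¹), α, ?_, hα, fun x x' t ht δ hδ hd u hu => ?_⟩
  · have h1q : 0 < 1 - q := by linarith
    have h2q : 0 < (1 - q)⁻¹ := inv_pos.2 h1q
    have h3q := mul_pos hD0 h2q
    exact mul_nonneg hC0 (by linarith)
  -- number of steps
  set n : ℕ := ⌊t / L.t1⌋₊ with hn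
  have hn1 : 1 ≤ n := by
    rw [hn]
    exact Nat.one_le_floor_iff _ |>.2 (by rwa [le_div_iff₀ ht1, one_mul])
  have hnpos : (0 : ℝ) < n := by exact_mod_cast hn1
  have hle : (n : ℝ) ≤ t / L.t1 := Nat.floor_le (div_nonneg (ht1.le.trans ht) ht1.le)
  have hlt : t / L.t1 < n + 1 := Nat.lt_floor_add_one _
  have hs1 : L.t1 ≤ t / n := by
    rw [le_div_iff₀ hnpos]
    rw [le_div_iff₀ ht1] at hle
    linarith
  have hs2 : t / n ≤ 2 * L.t1 := by
    rw [div_le_iff₀ hnpos]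
    rw [div_lt_iff₀ ht1] at hlt
    have : (1 : ℝ) ≤ n := by exact_mod_cast hn1
    nlinarith
  obtain ⟨m, hm⟩ : ∃ m, n = m + 1 := ⟨n - 1, by omega⟩
  have htn : ((m + 1 : ℕ) : ℝ) * (t / n) = t := by
    rw [← hm]
    field_simp
  have h1 := key (t / n) hs1 hs2 δ hδ m x x' (by rwa [htn]) u hu
  rw [htn] at h1
  refine h1.trans ?_
  have h2 : ∑ j ∈ Finset.range m, q ^ (j + 1) ≤ (1 - q)⁻¹ := by
    have h3 : ∑ j ∈ Finset.range m, q ^ (j + 1) ≤ ∑ j ∈ Finset.range m, q ^ j :=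
      Finset.sum_le_sum fun j _ => pow_le_pow_of_le_one hq0.le hq1.le (Nat.le_succ j)
    refine h3.trans ?_
    have h4 := (summable_geometric_of_lt_one hq0.le hq1).sum_le_tsum (Finset.range m)
      (fun i _ => by positivity)
    rwa [tsum_geometric_of_lt_one hq0.le hq1] at h4
  have h5 : (0 : ℝ) ≤ C * δ ^ α := by positivity
  calc C * δ ^ α * (1 + D * ∑ j ∈ Finset.range m, q ^ (j + 1))
      ≤ C * δ ^ α * (1 + D * (1 - q)⁻¹) := by
        refine mul_le_mul_of_nonneg_left ?_ h5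
        have := mul_le_mul_of_nonneg_left h2 (by linarith : (0 : ℝ) ≤ D)
        linarith
    _ = C * (1 + D * (1 - q)⁻¹) * δ ^ α := by ring

/-- estimate of all derivatives -/
theorem R_close : ∃ α : ℝ, 0 < α ∧ ∀ k : ℕ, ∃ C : ℝ, 0 ≤ C ∧ ∀ x x' : X, ∀ t, L.t1 ≤ t → ∀ δ, 0 < δ →
    (∀ s ∈ Icc 0 t, dist (L.φ s x) (L.φ s x') ≤ δ) → ∀ u ∈ closedBall (0 : E2) (3 / 2),
    ‖iteratedFDeriv ℝ k (R L t x) u - iteratedFDeriv ℝ k (R L t x') u‖ ≤ C * δ ^ α := by
  obtain ⟨C₀, α, hC₀, hα, hH⟩ := R_holder0 L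
  refine ⟨α / 2, by positivity, fun k => ?_⟩
  obtain ⟨A, hA, hI⟩ := H545.exists_interp_scale.{0} k (2 * k + 1) (by omega)
  obtain ⟨D, hD1, hD⟩ := R_bound L (2 * k + 1)
  obtain ⟨D', hD1', hD'⟩ := R_bound L k
  have hD0 : 0 < D := by linarith
  have hD0' : 0 < D' := by linarith
  refine ⟨A * (2 ^ k * C₀ + 2 * D) + 2 * D', by positivity, fun x x' t ht δ hδ0 hd u hu => ?_⟩
  have hu3 : u ∈ ball (0 : E2) 3 := closedBall_subset_ball (by norm_num) hu
  have hα2 : 0 < α / 2 := by positivity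
  have htriv : ‖iteratedFDeriv ℝ k (R L t x) u - iteratedFDeriv ℝ k (R L t x') u‖ ≤ 2 * D' := by
    refine (norm_sub_le _ _).trans ?_
    have e1 := (hD' x t ht u hu3).1
    have e2 := (hD' x' t ht u hu3).1
    linarith
  rcases le_or_gt 1 δ with hδ1 | hδ1
  · have h1 : 1 ≤ δ ^ (α / 2) := Real.one_le_rpow hδ1 hα2.le
    have h2 : 0 ≤ A * (2 ^ k * C₀ + 2 * D) := by positivity
    calc _ ≤ 2 * D' := htriv
      _ ≤ (A * (2 ^ k * C₀ + 2 * D) + 2 * D') * 1 := by linarith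
      _ ≤ (A * (2 ^ k * C₀ + 2 * D) + 2 * D') * δ ^ (α / 2) :=
        mul_le_mul_of_nonneg_left h1 (by positivity)
  replace hδ1 : δ ≤ 1 := hδ1.le
  set h' : ℝ := δ ^ (α / (2 * k + 1)) with hh'
  set h : ℝ := h' / 2 with hh
  have hk0 : (0 : ℝ) < 2 * k + 1 := by positivity
  have hh0' : 0 < h' := Real.rpow_pos_of_pos hδ0 _
  have hh1' : h' ≤ 1 := Real.rpow_le_one hδ0.le hδ1 (by positivity)
  have hh0 : 0 < h := by positivity
  have hh1 : h ≤ 1 / 2 := by rw [hh]; linarith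
  have hsub2 : ∀ y ∈ closedBall u h, y ∈ closedBall (0 : E2) 2 := by
    intro y hy
    rw [mem_closedBall_zero_iff] at *
    rw [mem_closedBall, dist_eq_norm] at hy
    calc ‖y‖ = ‖u + (y - u)‖ := by rw [add_sub_cancel]
      _ ≤ ‖u‖ + ‖y - u‖ := norm_add_le _ _
      _ ≤ 3 / 2 + 1 / 2 := add_le_add hu (hy.trans hh1)
      _ = 2 := by norm_num
  have hsub3 : ∀ y ∈ closedBall u h, y ∈ ball (0 : E2) 3 := fun y hy =>
    closedBall_subset_ball (by norm_num) (hsub2 y hy)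
  have hcd : ∀ z : X, ∀ y ∈ closedBall u h, ContDiffAt ℝ ∞ (R L t z) y := fun z y hy =>
    (R_smooth z ht).contDiffAt (isOpen_ball.mem_nhds (hsub3 y hy))
  have hcd' : ∀ z : X, ∀ y ∈ closedBall u h, ContDiffAt ℝ (2 * k + 1 : ℕ) (R L t z) y :=
    fun z y hy => contDiffAt_infty.1 (hcd z y hy) (2 * k + 1)
  have hcd'' : ∀ z : X, ContDiffAt ℝ k (R L t z) u :=
    fun z => contDiffAt_infty.1 (hcd z u (mem_closedBall_self hh0.le)) k
  have h1 := hI E2 E2 (R L t x - R L t x') u h (C₀ * δ ^ α) (2 * D) hh0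
    (fun y hy => (hcd' x y hy).sub (hcd' x' y hy))
    (fun y hy => by
      simp only [Pi.sub_apply]
      exact hH x x' t ht δ hδ0.le hd y (hsub2 y hy))
    (fun y hy => by
      rw [iteratedFDeriv_sub_apply (hcd' x y hy) (hcd' x' y hy)]
      refine (norm_sub_le _ _).trans ?_
      have e1 := (hD x t ht y (hsub3 y hy)).1
      have e2 := (hD x' t ht y (hsub3 y hy)).1
      linarith)
  rw [iteratedFDeriv_sub_apply (hcd'' x) (hcd'' x')] at h1
  refine h1.trans ?_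
  have hδα : 0 < δ ^ (α / 2) := Real.rpow_pos_of_pos hδ0 _
  have hfin : h⁻¹ ^ k * (C₀ * δ ^ α) + h ^ (2 * k + 1 - k) * (2 * D)
      ≤ (2 ^ k * C₀ + 2 * D) * δ ^ (α / 2) := by
    -- exponents
    have e1 : h⁻¹ ^ k * (C₀ * δ ^ α) ≤ 2 ^ k * C₀ * δ ^ (α / 2) := by
      have e0 : h⁻¹ ^ k = 2 ^ k * h'⁻¹ ^ k := by
        rw [hh, inv_div, div_eq_mul_inv, mul_pow]
      have e2 : h'⁻¹ ^ k * δ ^ α = δ ^ (α - α / (2 * k + 1) * k) := by
        rw [hh', ← Real.rpow_neg hδ0.le, ← Real.rpow_natCast, ← Real.rpow_mul hδ0.le,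
          ← Real.rpow_add hδ0]
        congr 1
        ring
      have e3 : δ ^ (α - α / (2 * k + 1) * k) ≤ δ ^ (α / 2) := by
        refine Real.rpow_le_rpow_of_exponent_ge hδ0 hδ1 ?_
        have : α / (2 * k + 1) * k ≤ α / 2 := by
          rw [div_mul_eq_mul_div, div_le_div_iff₀ hk0 (by norm_num)]
          nlinarith
        linarith
      calc h⁻¹ ^ k * (C₀ * δ ^ α) = 2 ^ k * C₀ * (h'⁻¹ ^ k * δ ^ α) := by rw [e0]; ring
        _ ≤ 2 ^ k * C₀ * δ ^ (α / 2) := by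
          rw [e2]
          exact mul_le_mul_of_nonneg_left e3 (by positivity)
    have e4 : h ^ (2 * k + 1 - k) * (2 * D) ≤ 2 * D * δ ^ (α / 2) := by
      have e50 : h ^ (2 * k + 1 - k) ≤ h' ^ (2 * k + 1 - k) :=
        pow_le_pow_left₀ hh0.le (by rw [hh]; linarith) _
      have e5 : h' ^ (2 * k + 1 - k) = δ ^ (α / (2 * k + 1) * (k + 1)) := by
        rw [hh', ← Real.rpow_natCast, ← Real.rpow_mul hδ0.le, show 2 * k + 1 - k = k + 1 by omega]
        push_cast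
        ring_nf
      have e6 : δ ^ (α / (2 * k + 1) * (k + 1)) ≤ δ ^ (α / 2) := by
        refine Real.rpow_le_rpow_of_exponent_ge hδ0 hδ1 ?_
        rw [div_mul_eq_mul_div, div_le_div_iff₀ (by norm_num) hk0]
        nlinarith
      rw [mul_comm]
      exact mul_le_mul_of_nonneg_left (e50.trans (e5 ▸ e6)) (by linarith)
    calc h⁻¹ ^ k * (C₀ * δ ^ α) + h ^ (2 * k + 1 - k) * (2 * D)
        ≤ 2 ^ k * C₀ * δ ^ (α / 2) + 2 * D * δ ^ (α / 2) := add_le_add e1 e4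
      _ = (2 ^ k * C₀ + 2 * D) * δ ^ (α / 2) := by ring
  calc A * (h⁻¹ ^ k * (C₀ * δ ^ α) + h ^ (2 * k + 1 - k) * (2 * D))
      ≤ A * ((2 ^ k * C₀ + 2 * D) * δ ^ (α / 2)) := mul_le_mul_of_nonneg_left hfin hA
    _ ≤ (A * (2 ^ k * C₀ + 2 * D) + 2 * D') * δ ^ (α / 2) := by
      have : 0 ≤ 2 * D' * δ ^ (α / 2) := by positivity
      nlinarith

end Vale.Agent.P207.N3.H147
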