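import Vale.Agent.P207.N3.H147.ConvF
import Vale.Agent.P207.N3.H310.P4F

/-!
# P207, line N3 (P4, E2): forward coordinates exist for every closed orbit, with one exponent
-/

open Set Filter Topology Metric MeasureTheory
open scoped ContDiff

noncomputable section

namespace Vale.Agent.P207.N3.H147

variable {Γ X B : Type} [Group Γ] [MetricSpace X] [ProperSpace X] [MulAction Γ X]
  [IsIsometricSMul Γ X] [TopologicalSpace B] [CompactSpace B] [T2Space B] [MulAction Γ B]
  [ContinuousConstSMul Γ B]

/-- **(E2)** -/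
theorem exists_fwd (L : Leaf Γ X B) :
    ∃ c : ℝ, 0 < c ∧ ∀ (o : Orb L) (n : Nor L o), Nonempty (Fwd o n.x n.N.fn c) :=
  H310.exists_fwd_of_conv L fun _ hc => by
    obtain ⟨c', hc', h⟩ := conv_of_germ L hc
    exact ⟨c', hc', fun o n hl g => h o hl n g⟩

end Vale.Agent.P207.N3.H147
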