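import Vale.Agent.P207.N3.H147.RetData
import Vale.Agent.P207.N3.H992.FwdK

/-!
# P207, line N3 (P4, E2): the forward coordinates on the frames `hol ζ o.x`

`Raw o n σ` is the output of 992's `forwardK` over the parameter space `Fs o` (the frames
`hol ζ o.x`, `ζ ≠ β⁺`), for orbits of large period.
-/

open Set Filter Topology Metric MeasureTheory
open scoped ContDiff
open Vale.Agent.P207.N3.H992 (SB BF Cv CvK Data DataK SB_iff Cv_iff BF_iff IsNF)
open Vale.Agent.P207.N3.H790 (NF)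

noncomputable section

namespace Vale.Agent.P207.N3.H147

variable {Γ X B : Type} [Group Γ] [MetricSpace X] [ProperSpace X] [MulAction Γ X]
  [IsIsometricSMul Γ X] [TopologicalSpace B] [CompactSpace B] [T2Space B] [MulAction Γ B]
  [ContinuousConstSMul Γ B] {L : Leaf Γ X B} {o : Orb L}

instance : WeaklyLocallyCompactSpace (Fs o) := by
  have : LocallyCompactSpace (Fs o) := (isClosed_Fs o).locallyCompactSpace
  infer_instance

theorem isNF_fn {N : NF} (h : N.OK) : IsNF N.fn := by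
  cases N with
  | tri μ₁ μ₂ a k => exact IsNF.tri μ₁ μ₂ a k h.1 h.2.1 h.2.2
  | cx c s => exact IsNF.cx c s h.1 h.2

/-- raw forward coordinates -/
structure Raw (o : Orb L) (n : Nor L o) (σ : ℝ) where
  Y : ℕ × Fs o → E2 → E2
  cv : CvK (3 / 2) σ Y (fun u => n.x (L.e o.x u))
  step : ∀ m w, ∀ u ∈ ball (0 : E2) (3 / 2),
    Y (m + 1, w) u = n.N.fn (Y (m, w) (Gm o (m, w.1) u))
  zero : ∀ p, Y p 0 = 0
  inj : ∀ p, Function.Injective (fderiv ℝ (Y p) 0)

variable (L) in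
theorem exists_dataK : ∃ α : ℝ, 0 < α ∧ ∃ l₀ : ℝ, ∀ o : Orb L, l₀ ≤ o.l → L.t1 ≤ o.l ∧
    ∃ d : DataK E2 (Fs o) (3 / 2) (1 / 2) (Real.exp (-(α * L.χ * o.l))),
      (∀ p : ℕ × Fs o, d.G p = Gm o (p.1, p.2.1)) ∧ d.f = fm o := by
  obtain ⟨α, hα, l₀, h⟩ := exists_data L
  refine ⟨α, hα, l₀, fun o hl => ?_⟩
  obtain ⟨hl1, hd⟩ := h o hl
  have hone : ∀ w : Fs o, ∃ d : Data E2 ({w.1} : Set X) (3 / 2) (1 / 2)
      (Real.exp (-(α * L.χ * o.l))),
      (∀ p : ℕ × ({w.1} : Set X), d.G p = Gm o (p.1, p.2.1)) ∧ d.f = fm o :=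
    fun w => hd {w.1} isCompact_singleton (singleton_subset_iff.2 w.2)
  have hyc : Continuous fun p : ℕ × Fs o => ym o p.1 p.2.1 :=
    pair_cont fun m => (ym_cont o m).comp continuous_subtype_val
  obtain ⟨d₀, hG₀, hf₀⟩ := hone ⟨o.x, x_mem_Fs o⟩
  refine ⟨hl1, {
    R_pos := by norm_num
    ρ_nonneg := by norm_num
    ρ_lt := by norm_num
    σ_pos := Real.exp_pos _
    G := fun p => Gm o (p.1, p.2.1)
    f := fm o
    f_sb := g0_sb o hl1 o.x (by norm_num)
    cv := fun K hK => ?_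
    G_map := fun p x hx => ?_
    f_map := fun x hx => ?_
    G_der := fun p x hx => ?_
    G_zero := fun p => g0_zero _
    f_zero := g0_zero _
    D := fun p => g0inv o (ym o p.1 p.2.1)
    D_cont := (g0inv_cont o).comp hyc
    D_bdd := fun K hK => ?_
    D_left := fun p => g0inv_left o _ }, fun p => rfl, rfl⟩
  · obtain ⟨d, hG, hf⟩ := hd (Subtype.val '' K) (hK.image continuous_subtype_val)
      (by rintro _ ⟨w, _, rfl⟩; exact w.2)
    intro k
    have h1 := d.cv k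
    have h2 : Continuous fun p : ℕ × K => ((p.1, ⟨p.2.1.1, mem_image_of_mem _ p.2.2⟩) :
        ℕ × (Subtype.val '' K : Set X)) := by
      fun_prop
    have h3 := BF.reparam h2 h1
    refine h3.congr fun p x _ => ?_
    rw [hG, hf]
  · obtain ⟨d, hG, hf⟩ := hone p.2
    have h1 := d.G_map (p.1, ⟨p.2.1, rfl⟩) x hx
    rwa [hG] at h1
  · have h1 := d₀.f_map x hx
    rwa [hf₀] at h1
  · obtain ⟨d, hG, hf⟩ := hone p.2
    have h1 := d.G_der (p.1, ⟨p.2.1, rfl⟩) x hx
    rwa [hG] at h1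
  · obtain ⟨C, _, hC⟩ := g0inv_bdd o
    exact ⟨C, fun m ξ _ => hC _⟩

theorem fm_mem (hl : L.t1 ≤ o.l) {u : E2} (hu : u ∈ closedBall (0 : E2) 3) :
    fm o u ∈ ball (0 : E2) 1 := g0_mem hl _ hu

/-- the equation of the normal coordinate in the chart `e o.x` -/
theorem nor_eq (n : Nor L o) (hl : L.t1 ≤ o.l) {u : E2} (hu : u ∈ closedBall (0 : E2) 3) :
    n.x (L.e o.x u) = n.N.fn (n.x (L.e o.x (fm o u))) := by
  have h1 := smul_e_ym (o := o) hl 0 o.x hu
  rw [ym_x, ym_zero, Gm_x] at h1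
  have h2 : n.x (o.β⁻¹ • (o.β • L.e o.x u)) = n.N.fn (n.x (o.β • L.e o.x u)) := by
    refine n.equiv _ ?_
    rw [h1]
    exact L.e_ne o.x _ (cb3 (by norm_num) (fm_mem hl hu))
  rw [inv_smul_smul, h1] at h2
  exact h2

theorem nor_sb (n : Nor L o) {r : ℝ} (hr : r < 3) : SB r (fun u => n.x (L.e o.x u)) := by
  have hs := n.smooth o.x rfl
  rw [SB_iff]
  refine ⟨hs.mono (ball_subset_ball hr.le), fun j => ?_⟩
  have hc : ContinuousOn (fun u => iteratedFDeriv ℝ j (fun u => n.x (L.e o.x u)) u)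
      (ball (0 : E2) 3) := by
    have h1 := hs.continuousOn_iteratedFDerivWithin (m := j) (by exact_mod_cast le_top)
      isOpen_ball.uniqueDiffOn
    exact h1.congr fun u hu => (iteratedFDerivWithin_of_isOpen j isOpen_ball hu).symm
  obtain ⟨C, hC⟩ := (isCompact_closedBall (0 : E2) r).exists_bound_of_continuousOn
    (hc.mono (closedBall_subset_ball hr))
  exact ⟨C, fun x hx => hC x (ball_subset_closedBall hx)⟩

theorem nor_inj (n : Nor L o) : Function.Injective (fderiv ℝ (fun u => n.x (L.e o.x u)) 0) := by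
  have h := n.deriv o.x rfl 0 (mem_ball_self (by norm_num))
  exact (ContinuousLinearMap.toContinuousLinearEquivOfDetNeZero _ h).injective

variable (L) in
/-- raw forward coordinates exist for large periods; the constant `c` depends only on `L` -/
theorem exists_raw : ∃ c : ℝ, 0 < c ∧ ∃ l₀ : ℝ, ∀ o : Orb L, l₀ ≤ o.l → L.t1 ≤ o.l ∧
    ∀ n : Nor L o, Nonempty (Raw o n (Real.exp (-(c * o.l)))) := by
  obtain ⟨α, hα, l₀, h⟩ := exists_dataK L
  have hχ := L.χ_pos
  refine ⟨α * L.χ / 2, by positivity, l₀, fun o hl => ?_⟩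
  obtain ⟨hl1, d, hG, hf⟩ := h o hl
  refine ⟨hl1, fun n => ?_⟩
  have hol := o.ax.pos
  have hσ : Real.exp (-(α * L.χ * o.l)) < Real.exp (-(α * L.χ / 2 * o.l)) := by
    rw [Real.exp_lt_exp]
    have : 0 < α * L.χ * o.l := by positivity
    linarith
  have hσ' : Real.exp (-(α * L.χ / 2 * o.l)) < 1 := by
    rw [Real.exp_lt_one_iff]
    have : 0 < α * L.χ / 2 * o.l := by positivity
    linarith
  obtain ⟨Y, h1, h2, h3, h4⟩ := H992.forwardK d hσ hσ' (isNF_fn n.ok)
    (h := fun u => n.x (L.e o.x u)) (nor_sb n (by norm_num))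
    (by rw [L.e_zero]; exact n.base) (nor_inj n)
    (fun x hx => by rw [hf]; exact nor_eq n hl1 (cb3 (by norm_num) hx))
  exact ⟨{
    Y := Y
    cv := h1
    step := fun m w u hu => by rw [h2 m w u hu, hG]
    zero := h3
    inj := h4 }⟩

end Vale.Agent.P207.N3.H147
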