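import Vale.Agent.P207.N3.H147.Hold
import Vale.Agent.P207.N3.H147.Fwd
import Vale.Agent.P207.N3.Top.Orb
import Vale.Agent.P207.N3.H992.Fwd3

/-!
# P207, line N3 (P4, E2): the return maps `G (m, w)` of the leaves asymptotic to a closed orbit

`w = hol ζ o.x`, `ym m w = hol (β^{-m} ζ) o.x`; `β ∘ e (ym (m+1) w) = e (ym m w) ∘ G (m, w)`.
-/

open Set Filter Topology Metric MeasureTheory
open scoped ContDiff

noncomputable section

namespace Vale.Agent.P207.N3.H147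

variable {Γ X B : Type} [Group Γ] [MetricSpace X] [ProperSpace X] [MulAction Γ X]
  [IsIsometricSMul Γ X] [TopologicalSpace B] [CompactSpace B] [T2Space B] [MulAction Γ B]
  [ContinuousConstSMul Γ B] {L : Leaf Γ X B} (o : Orb L)

/-- the frames `hol ζ o.x`, `ζ ≠ β⁺` -/
def Fs : Set X := {w | L.em w ≠ o.pos ∧ L.hol (L.em w) o.x = w}

theorem hol_mem_Fs {ζ : B} (h : ζ ≠ o.pos) : L.hol ζ o.x ∈ Fs o := by
  have h1 : L.em (L.hol ζ o.x) = ζ := L.hol_em ζ o.x h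
  exact ⟨by rw [h1]; exact h, by rw [h1]⟩

theorem x_mem_Fs : o.x ∈ Fs o := ⟨o.neg_ne_pos, L.hol_self o.x⟩

variable {o} in
theorem Fs_ep {w : X} (hw : w ∈ Fs o) : L.ep w = o.pos := by
  have h := L.hol_ep (L.em w) o.x hw.1
  rwa [hw.2] at h

theorem isClosed_Fs : IsClosed (Fs o) := by
  rw [← isSeqClosed_iff_isClosed]
  intro w x hw hx
  have h1 : L.ep x = o.pos := by
    have := ((ep_cont L).tendsto x).comp hx
    refine tendsto_nhds_unique this ?_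
    simp only [Function.comp_def, fun n => Fs_ep (hw n)]
    exact tendsto_const_nhds
  have h2 : L.em x ≠ o.pos := by rw [← h1]; exact L.em_ne_ep x
  refine ⟨h2, ?_⟩
  have h3 : Tendsto (fun n => (L.em (w n), o.x)) atTop
      (𝓝[{p : B × X | p.1 ≠ L.ep p.2}] (L.em x, o.x)) := by
    refine tendsto_nhdsWithin_iff.2 ⟨((L.em_cont.tendsto x).comp hx).prodMk_nhds
      tendsto_const_nhds, Eventually.of_forall fun n => (hw n).1⟩
  have h4 := (L.hol_cont (L.em x, o.x) h2).tendsto.comp h3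
  refine tendsto_nhds_unique h4 ?_
  simp only [Function.comp_def, fun n => (hw n).2]
  exact hx

/-- `ym m w = β^{-m} φ_{ml} (rot a^m w)` -/
def ym (m : ℕ) (w : X) : X := (o.β ^ m)⁻¹ • L.φ (m * o.l) (L.rot (o.a ^ m) w)

theorem φ_cont (t : ℝ) : Continuous (L.φ t) := L.φ_cont' t

theorem ym_cont (m : ℕ) : Continuous (ym o m) :=
  ((φ_cont _).comp (L.rot_cont _)).const_smul _

theorem ym_zero (w : X) : ym o 0 w = w := by
  simp [ym, L.φ_zero, L.rot_one]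

theorem em_ym (m : ℕ) (w : X) : L.em (ym o m w) = (o.β ^ m)⁻¹ • L.em w := by
  rw [ym, L.em_smul, L.em_φ, L.em_rot]

theorem pos_smul (m : ℕ) : (o.β ^ m)⁻¹ • o.pos = o.pos := Ax.inv_pow_smul_ep o.ax m

theorem neg_smul (m : ℕ) : (o.β ^ m)⁻¹ • o.neg = o.neg := Ax.inv_pow_smul_em o.ax m

variable {o} in
theorem ep_ym (m : ℕ) {w : X} (hw : L.ep w = o.pos) : L.ep (ym o m w) = o.pos := by
  rw [ym, ep_smul, ep_φ, ep_rot, hw, pos_smul]

theorem smul_ym (m : ℕ) (w : X) : o.β • ym o (m + 1) w = L.φ o.l (L.rot o.a (ym o m w)) := by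
  have e1 : o.β • (o.β ^ (m + 1))⁻¹ • L.φ ((m + 1 : ℕ) * o.l) (L.rot (o.a ^ (m + 1)) w)
      = (o.β ^ m)⁻¹ • L.φ ((m + 1 : ℕ) * o.l) (L.rot (o.a ^ (m + 1)) w) := by
    rw [smul_smul]
    congr 1
    rw [pow_succ]
    group
  rw [ym, ym, e1, L.rot_smul, L.φ_smul, L.rot_φ, ← L.φ_add, pow_succ, L.rot_mul]
  congr 2
  push_cast
  ring

theorem ym_x (m : ℕ) : ym o m o.x = o.x := by
  rw [ym, inv_smul_eq_iff, Ax.pow_smul o.ax]

theorem ym_hol (m : ℕ) {ζ : B} (h : ζ ≠ o.pos) :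
    ym o m (L.hol ζ o.x) = L.hol ((o.β ^ m)⁻¹ • ζ) o.x ∧ (o.β ^ m)⁻¹ • ζ ≠ o.pos := by
  have h2 : (o.β ^ m)⁻¹ • ζ ≠ o.pos := by
    rw [← pos_smul o m]
    exact fun hc => h (smul_left_cancel _ hc)
  refine ⟨?_, h2⟩
  rw [ym, inv_smul_eq_iff]
  have h3 := L.hol_smul (o.β ^ m) ((o.β ^ m)⁻¹ • ζ) o.x h2
  rw [smul_inv_smul] at h3
  have h4 : ζ ≠ L.ep (L.rot (o.a ^ m) o.x) := by rw [ep_rot]; exact h
  rw [← h3, Ax.pow_smul o.ax, L.hol_φ _ _ _ h4, L.hol_rot _ _ _ h]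

theorem ym_mem_Fs (m : ℕ) {w : X} (hw : w ∈ Fs o) : ym o m w ∈ Fs o := by
  obtain ⟨h1, h2⟩ := ym_hol o m hw.1
  rw [hw.2] at h1
  rw [h1]
  exact hol_mem_Fs o h2

theorem ym_add (m n : ℕ) (w : X) : ym o (m + n) w = ym o m (ym o n w) := by
  rw [ym, ym, ym, L.rot_smul, L.φ_smul, L.rot_φ, ← L.φ_add, ← L.rot_mul, smul_smul,
    ← mul_inv_rev, ← pow_add, ← pow_add, add_comm n m]
  congr 2
  push_cast
  ring

/-! ### the return maps -/

/-- the return map -/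
def Gm (p : ℕ × X) : E2 → E2 :=
  L.τ (L.φ o.l (L.rot o.a (ym o p.1 p.2))) (ym o p.1 p.2)

/-- the return map of the closed orbit -/
def fm : E2 → E2 := L.τ (L.φ o.l (L.rot o.a o.x)) o.x

theorem Gm_x (m : ℕ) : Gm o (m, o.x) = fm o := by
  rw [Gm, fm, ym_x]

/-- the return map in a general frame -/
def g0 (y : X) : E2 → E2 := L.τ (L.φ o.l (L.rot o.a y)) y

theorem Gm_eq (p : ℕ × X) : Gm o p = g0 o (ym o p.1 p.2) := rfl

theorem fm_eq : fm o = g0 o o.x := rfl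

variable {o} in
theorem g0_eq (y : X) {u : E2} (hu : u ∈ closedBall (0 : E2) 3) :
    g0 o y u = R L o.l y (o.a u) := by
  rw [g0, ← L.rot_φ, tau_rot_left _ _ _ hu, R]

variable {o} in
theorem g0_mem (hl : L.t1 ≤ o.l) (y : X) {u : E2} (hu : u ∈ closedBall (0 : E2) 3) :
    g0 o y u ∈ ball (0 : E2) 1 := by
  rw [g0_eq y hu]
  exact R_mem y hl (isom_mem' hu)

variable {o} in
theorem e_g0 (hl : L.t1 ≤ o.l) (y : X) {u : E2} (hu : u ∈ closedBall (0 : E2) 3) :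
    L.e y (g0 o y u) = L.e (L.φ o.l (L.rot o.a y)) u := by
  rw [g0_eq y hu, e_R y hl (isom_mem' hu), ← L.rot_φ, L.e_rot _ _ _ hu]

/-- `β ∘ e (ym (m+1) w) = e (ym m w) ∘ G (m, w)` -/
theorem smul_e_ym (hl : L.t1 ≤ o.l) (m : ℕ) (w : X) {u : E2} (hu : u ∈ closedBall (0 : E2) 3) :
    o.β • L.e (ym o (m + 1) w) u = L.e (ym o m w) (Gm o (m, w) u) := by
  rw [Gm_eq, e_g0 hl _ hu, ← L.e_smul _ _ _ hu, smul_ym]

variable {o} in
theorem g0_mem_dm (hl : L.t1 ≤ o.l) (y : X) {u : E2} (hu : u ∈ ball (0 : E2) 3) :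
    u ∈ L.dm (L.φ o.l (L.rot o.a y)) y := by
  have h := g0_mem hl y (ball_subset_closedBall hu)
  exact mem_dm hu (ball_subset_ball (by norm_num) h) (e_g0 hl y (ball_subset_closedBall hu)).symm

variable {o} in
theorem g0_smooth (hl : L.t1 ≤ o.l) (y : X) : ContDiffOn ℝ ∞ (g0 o y) (ball 0 3) :=
  (L.tau_smooth _ y (by rw [L.em_φ, L.em_rot])).mono fun _ hu => g0_mem_dm hl y hu

variable {o} in
theorem g0_evq (y : X) {u : E2} (hu : u ∈ ball (0 : E2) 3) :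
    g0 o y =ᶠ[𝓝 u] (R L o.l y ∘ o.a) := by
  filter_upwards [isOpen_ball.mem_nhds hu] with v hv
  exact g0_eq y (ball_subset_closedBall hv)

variable {o} in
theorem norm_iter_g0 (k : ℕ) (y : X) {u : E2} (hu : u ∈ ball (0 : E2) 3) :
    ‖iteratedFDeriv ℝ k (g0 o y) u‖ = ‖iteratedFDeriv ℝ k (R L o.l y) (o.a u)‖ := by
  rw [((g0_evq y hu).iteratedFDeriv ℝ k).eq_of_nhds,
    LinearIsometryEquiv.norm_iteratedFDeriv_comp_right]

variable {o} in
theorem norm_iter_g0_sub (hl : L.t1 ≤ o.l) (k : ℕ) (y y' : X) {u : E2} (hu : u ∈ ball (0 : E2) 3) :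
    ‖iteratedFDeriv ℝ k (g0 o y) u - iteratedFDeriv ℝ k (g0 o y') u‖
      = ‖iteratedFDeriv ℝ k (R L o.l y) (o.a u) - iteratedFDeriv ℝ k (R L o.l y') (o.a u)‖ := by
  have hc : ∀ z : X, ContDiffAt ℝ k (g0 o z) u := fun z =>
    contDiffAt_infty.1 ((g0_smooth hl z).contDiffAt (isOpen_ball.mem_nhds hu)) k
  have hc' : ∀ z : X, ContDiffAt ℝ k (R L o.l z) (o.a u) := fun z =>
    contDiffAt_infty.1 ((R_smooth z hl).contDiffAt (isOpen_ball.mem_nhds (isom_mem hu))) k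
  rw [← iteratedFDeriv_sub_apply (hc y) (hc y'), ← iteratedFDeriv_sub_apply (hc' y) (hc' y'),
    ← LinearIsometryEquiv.norm_iteratedFDeriv_comp_right]
  congr 1
  have h1 : (g0 o y - g0 o y') =ᶠ[𝓝 u] ((R L o.l y - R L o.l y') ∘ o.a) := by
    filter_upwards [g0_evq (o := o) y hu, g0_evq (o := o) y' hu] with v hv hv'
    simp only [Pi.sub_apply, Function.comp_apply, hv, hv']
  exact (h1.iteratedFDeriv ℝ k).eq_of_nhds

variable {o} in
theorem g0_zero (y : X) : g0 o y 0 = 0 := by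
  refine tau_zero ?_
  rw [ep_φ, ep_rot]

/-! ### continuity -/

theorem tau_cont_comp {P : Type*} [TopologicalSpace P] {x y : P → X} (hx : Continuous x)
    (hy : Continuous y) (hem : ∀ p, L.em (x p) = L.em (y p)) (k : ℕ) {S : Set (P × E2)}
    (hS : ∀ q ∈ S, q.2 ∈ L.dm (x q.1) (y q.1)) :
    ContinuousOn (fun q : P × E2 => iteratedFDeriv ℝ k (L.τ (x q.1) (y q.1)) q.2) S := by
  have h1 := L.tau_cont k
  have h2 : ContinuousOn (fun q : P × E2 => ((x q.1, y q.1), q.2)) S := by fun_prop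
  exact h1.comp h2 fun q hq => ⟨hem q.1, hS q hq⟩

theorem pair_cont {Ξ : Type*} [TopologicalSpace Ξ] {f : ℕ → Ξ → X} (hf : ∀ m, Continuous (f m)) :
    Continuous fun p : ℕ × Ξ => f p.1 p.2 := by
  rw [continuous_prod_of_discrete_left]
  exact hf

end Vale.Agent.P207.N3.H147
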