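import Vale.Agent.P207.N3.H147.Ret

/-!
# P207, line N3 (P4, E2): the return maps as `Data` of H992
-/

open Set Filter Topology Metric MeasureTheory
open scoped ContDiff
open Vale.Agent.P207.N3.H992 (SB BF Cv Data SB_iff Cv_iff BF_iff)

noncomputable section

namespace Vale.Agent.P207.N3.H147

variable {Γ X B : Type} [Group Γ] [MetricSpace X] [ProperSpace X] [MulAction Γ X]
  [IsIsometricSMul Γ X] [TopologicalSpace B] [CompactSpace B] [T2Space B] [MulAction Γ B]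
  [ContinuousConstSMul Γ B] {L : Leaf Γ X B} (o : Orb L)

/-- the frames `ym m w` approach `o.x` -/
theorem close_K {K : Set X} (hK : IsCompact K) (hKF : K ⊆ Fs o) : ∃ C, 0 < C ∧ ∀ m : ℕ, ∀ w ∈ K,
    ∀ t ≥ -(m * o.l), dist (L.φ t (ym o m w)) (L.φ t o.x) ≤ C * Real.exp (-L.χ * (m * o.l + t)) := by
  obtain ⟨C, hC⟩ := Ax.hol_asym_axis o.ax (hK.image L.em_cont) (by
    rintro ⟨w, hw, he⟩
    exact (hKF hw).1 he)
  refine ⟨max C 1, lt_of_lt_of_le one_pos (le_max_right _ _), fun m w hw t ht => ?_⟩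
  obtain ⟨h1, h2⟩ := hC m (L.em w) (mem_image_of_mem _ hw) 1 t ht
  have h3 := (ym_hol o m (hKF hw).1).1
  rw [(hKF hw).2] at h3
  rw [L.rot_one, ← h3, dist_comm] at h2
  exact h2.trans (mul_le_mul_of_nonneg_right (le_max_left _ _) (Real.exp_nonneg _))

theorem exp_pow_rate (a l : ℝ) (m : ℕ) : Real.exp (-(a * l)) ^ m = Real.exp (-a * (m * l + 0)) := by
  rw [← Real.exp_nat_mul]
  congr 1
  ring

/-- the estimate of the difference of the return maps -/
theorem Gm_close : ∃ α : ℝ, 0 < α ∧ ∀ o : Orb L, L.t1 ≤ o.l → ∀ k : ℕ, ∃ C : ℝ, 0 ≤ C ∧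
    ∀ δ, 0 < δ → ∀ y y' : X, (∀ s ∈ Icc 0 o.l, dist (L.φ s y) (L.φ s y') ≤ δ) →
    ∀ u ∈ ball (0 : E2) (3 / 2),
    ‖iteratedFDeriv ℝ k (g0 o y) u - iteratedFDeriv ℝ k (g0 o y') u‖ ≤ C * δ ^ α := by
  obtain ⟨α, hα, h⟩ := R_close L
  refine ⟨α, hα, fun o hl k => ?_⟩
  obtain ⟨C, hC0, hC⟩ := h k
  refine ⟨C, hC0, fun δ hδ y y' hd u hu => ?_⟩
  rw [norm_iter_g0_sub hl k y y' (ball_subset_ball (by norm_num) hu)]
  exact hC y y' o.l hl δ hδ hd _ (isom_mem' (ball_subset_closedBall hu))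

/-- continuous invariant functions are bounded -/
theorem bdd_of_inv (L : Leaf Γ X B) {f : X → ℝ} (hf : Continuous f)
    (hs : ∀ (g : Γ) x, f (g • x) = f x) : ∃ C, 0 < C ∧ ∀ x, f x ≤ C := by
  obtain ⟨K, hK, hcov⟩ := L.cocompact
  obtain ⟨C, hC⟩ := hK.bddAbove_image hf.continuousOn
  refine ⟨max C 1, lt_of_lt_of_le one_pos (le_max_right _ _), fun x => ?_⟩
  obtain ⟨g, hg⟩ := hcov x
  rw [← hs g]
  exact (hC (mem_image_of_mem _ hg)).trans (le_max_left _ _)

/-- continuity of the derivative at the centre -/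
theorem fderiv_tau_cont {P : Type*} [TopologicalSpace P] {x y : P → X} (hx : Continuous x)
    (hy : Continuous y) (hem : ∀ p, L.em (x p) = L.em (y p)) (hep : ∀ p, L.ep (x p) = L.ep (y p)) :
    Continuous fun p => fderiv ℝ (L.τ (x p) (y p)) 0 := by
  have h1 := tau_cont_comp hx hy hem 1 (S := univ ×ˢ {0}) (by
    rintro ⟨p, u⟩ ⟨_, hu⟩
    simp only [mem_singleton_iff] at hu
    subst hu
    exact zero_mem_dm (hep p))
  have h2 : Continuous fun p : P => iteratedFDeriv ℝ 1 (L.τ (x p) (y p)) 0 := by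
    rw [← continuousOn_univ]
    exact h1.comp (f := fun p : P => (p, (0 : E2))) (by fun_prop) (fun p _ => ⟨trivial, rfl⟩)
  have h3 : (fun p => fderiv ℝ (L.τ (x p) (y p)) 0) =
      fun p => (continuousMultilinearCurryFin1 ℝ E2 E2)
        (iteratedFDeriv ℝ 1 (L.τ (x p) (y p)) 0) := by
    funext p
    ext v : 1
    simp [iteratedFDeriv_one_apply]
  rw [h3]
  exact (continuousMultilinearCurryFin1 ℝ E2 E2).continuous.comp h2

/-- the inverse of the derivative of the return map at `0` -/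
def g0inv (y : X) : E2 →L[ℝ] E2 := fderiv ℝ (L.τ y (L.φ o.l (L.rot o.a y))) 0

theorem g0inv_cont : Continuous (g0inv o) :=
  fderiv_tau_cont continuous_id ((φ_cont _).comp (L.rot_cont _))
    (fun y => by rw [L.em_φ, L.em_rot]) (fun y => by rw [ep_φ, ep_rot])

theorem g0inv_smul (g : Γ) (y : X) : g0inv o (g • y) = g0inv o y := by
  rw [g0inv, g0inv, L.rot_smul, L.φ_smul]
  apply Filter.EventuallyEq.fderiv_eq
  have h0 : (0 : E2) ∈ L.dm y (L.φ o.l (L.rot o.a y)) := zero_mem_dm (by rw [ep_φ, ep_rot])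
  filter_upwards [(L.isOpen_dm _ _).mem_nhds h0] with u hu
  exact tau_smul g hu

theorem g0inv_bdd : ∃ C, 0 < C ∧ ∀ y, ‖g0inv o y‖ ≤ C :=
  bdd_of_inv L (g0inv_cont o).norm fun g x => by rw [g0inv_smul]

theorem g0inv_left (y : X) :
    (g0inv o y).comp (fderiv ℝ (g0 o y) 0) = ContinuousLinearMap.id ℝ E2 := by
  have h := fderiv_tau_comp (L := L) (x := L.φ o.l (L.rot o.a y)) (y := y)
    (by rw [L.em_φ, L.em_rot]) (zero_mem_dm (by rw [ep_φ, ep_rot]))
  have h0 : L.τ (L.φ o.l (L.rot o.a y)) y 0 = 0 := tau_zero (by rw [ep_φ, ep_rot])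
  rw [h0] at h
  exact h

theorem g0_sb (hl : L.t1 ≤ o.l) (y : X) {r : ℝ} (hr : r ≤ 3) : SB r (g0 o y) := by
  rw [SB_iff]
  refine ⟨(g0_smooth hl y).mono (ball_subset_ball hr), fun j => ?_⟩
  obtain ⟨C, _, hC⟩ := R_bound L j
  refine ⟨C, fun u hu => ?_⟩
  rw [norm_iter_g0 j y (ball_subset_ball hr hu)]
  exact (hC y o.l hl _ (isom_mem (ball_subset_ball hr hu))).1

variable (L) in
/-- The exponent of the rates: `α₀` depends only on `L`. -/
theorem exists_data : ∃ α : ℝ, 0 < α ∧ ∃ l₀ : ℝ, ∀ o : Orb L, l₀ ≤ o.l → L.t1 ≤ o.l ∧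
    ∀ K : Set X, IsCompact K → K ⊆ Fs o →
    ∃ d : Data E2 K (3 / 2) (1 / 2) (Real.exp (-(α * L.χ * o.l))),
      (∀ p : ℕ × K, d.G p = Gm o (p.1, p.2.1)) ∧ d.f = fm o := by
  obtain ⟨α, hα, hcl⟩ := Gm_close (L := L)
  obtain ⟨D, hD1, hD⟩ := R_lip L
  have hχ := L.χ_pos
  refine ⟨α, hα, max L.t1 (Real.log (2 * D) / L.χ), fun o hl => ?_⟩
  have hl1 : L.t1 ≤ o.l := (le_max_left _ _).trans hl
  have hl2 : D * Real.exp (-L.χ * o.l) ≤ 1 / 2 := by
    have h1 : Real.log (2 * D) ≤ L.χ * o.l := by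
      have := (le_max_right _ _).trans hl
      rw [div_le_iff₀ hχ] at this
      linarith
    have h2 : 2 * D ≤ Real.exp (L.χ * o.l) := by
      rw [← Real.exp_log (by linarith : (0 : ℝ) < 2 * D)]
      exact Real.exp_le_exp.2 h1
    have h3 : Real.exp (-L.χ * o.l) = (Real.exp (L.χ * o.l))⁻¹ := by
      rw [← Real.exp_neg]; ring_nf
    have h4 : 0 < Real.exp (L.χ * o.l) := Real.exp_pos _
    rw [h3, ← div_eq_mul_inv, div_le_iff₀ h4]
    linarith
  refine ⟨hl1, fun K hK hKF => ?_⟩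
  obtain ⟨C₀, hC₀, hC⟩ := close_K o hK hKF
  have hyc : Continuous fun p : ℕ × K => ym o p.1 p.2.1 :=
    pair_cont fun m => (ym_cont o m).comp continuous_subtype_val
  have hf : SB (3 / 2) (fm o) := g0_sb o hl1 o.x (by norm_num)
  refine ⟨{
    R_pos := by norm_num
    ρ_nonneg := by norm_num
    ρ_lt := by norm_num
    σ_pos := Real.exp_pos _
    G := fun p => Gm o (p.1, p.2.1)
    f := fm o
    f_sb := hf
    cv := ?_
    G_map := fun p x hx => ball_subset_ball (by norm_num)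
      (g0_mem hl1 _ (cb3 (by norm_num) hx))
    f_map := fun x hx => ball_subset_ball (by norm_num)
      (g0_mem hl1 _ (cb3 (by norm_num) hx))
    G_der := fun p x hx => ?_
    G_zero := fun p => g0_zero _
    f_zero := g0_zero _
    D := fun p => g0inv o (ym o p.1 p.2.1)
    D_cont := (g0inv_cont o).comp hyc
    D_bdd := ?_
    D_left := fun p => g0inv_left o _ }, fun p => rfl, rfl⟩
  · rw [Cv_iff (Real.exp_pos _) hf]
    refine ⟨fun p => (g0_smooth hl1 _).mono (ball_subset_ball (by norm_num)), fun j => ⟨?_, ?_⟩⟩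
    · exact tau_cont_comp ((φ_cont _).comp ((L.rot_cont _).comp hyc)) hyc
        (fun p => by rw [Function.comp_apply, Function.comp_apply, L.em_φ, L.em_rot]) j
        (fun q hq => g0_mem_dm hl1 _ (ball_subset_ball (by norm_num) hq.2))
    · obtain ⟨C₁, hC₁0, hC₁⟩ := hcl o hl1 j
      refine ⟨C₁ * C₀ ^ α, fun p u hu => ?_⟩
      have h1 := hC₁ (C₀ * Real.exp (-L.χ * (p.1 * o.l + 0))) (by positivity)
        (ym o p.1 p.2.1) o.x (fun s hs => (hC p.1 p.2.1 p.2.2 s (by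
          have := o.ax.pos
          have : 0 ≤ (p.1 : ℝ) * o.l := by positivity
          linarith [hs.1])).trans ?_) u hu
      · refine h1.trans (le_of_eq ?_)
        rw [Real.mul_rpow hC₀.le (Real.exp_nonneg _), ← Real.exp_mul, ← Real.exp_nat_mul, ← mul_assoc]
        congr 2
        ring
      · refine mul_le_mul_of_nonneg_left (Real.exp_le_exp.2 ?_) hC₀.le
        nlinarith [hs.1]
  · have h1 := norm_iter_g0 (o := o) 1 (ym o p.1 p.2.1) (u := x)
      (ball_subset_ball (by norm_num) hx)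
    rw [norm_iteratedFDeriv_one, norm_iteratedFDeriv_one] at h1
    rw [Gm_eq, h1]
    exact ((hD _ o.l hl1).1 _ (isom_mem (ball_subset_ball (by norm_num) hx))).trans hl2
  · obtain ⟨C, _, hC⟩ := g0inv_bdd o
    exact ⟨C, fun p => hC _⟩

end Vale.Agent.P207.N3.H147
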